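import Vale.Agent.H24.TH.Defs

/-!
Row A: trace inequality for `log det`.
-/

namespace Vale.Agent.H24.TH

open Matrix Finset Filter

section A
variable {n : Type*} [Fintype n] [DecidableEq n]

open scoped MatrixOrder ComplexOrder in
/-- symmetric square root of a positive semidefinite matrix -/
theorem exists_sqrt {Q : Matrix n n ℝ} (hQ : Q.PosSemidef) :
    ∃ C : Matrix n n ℝ, C.PosSemidef ∧ Cᴴ = C ∧ C * C = Q := by
  refine ⟨CFC.sqrt Q, (CFC.sqrt_nonneg Q).posSemidef, (CFC.sqrt_nonneg Q).posSemidef.isHermitian, ?_⟩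
  exact CFC.sqrt_mul_sqrt_self Q hQ.nonneg

/-- `log det M ≤ tr M - n` -/
theorem logdet_le_trace {M : Matrix n n ℝ} (hM : M.PosDef) :
    Real.log M.det ≤ M.trace - Fintype.card n := by
  have hH := hM.isHermitian
  rw [hH.det_eq_prod_eigenvalues, hH.trace_eq_sum_eigenvalues]
  simp only [RCLike.ofReal_real_eq_id, id]
  rw [Real.log_prod (fun i _ => (hM.eigenvalues_pos i).ne')]
  calc ∑ i, Real.log (hH.eigenvalues i) ≤ ∑ i, (hH.eigenvalues i - 1) :=
        Finset.sum_le_sum fun i _ => Real.log_le_sub_one_of_pos (hM.eigenvalues_pos i)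
    _ = _ := by simp

/-- Row A (i). -/
theorem logdet_add_le {P Q : Matrix n n ℝ} (hP : P.PosDef) (hQ : Q.PosDef) :
    Real.log P.det + Real.log Q.det ≤ (P * Q).trace - Fintype.card n := by
  obtain ⟨C, -, hC1, hC2⟩ := exists_sqrt hQ.posSemidef
  have hC : Q = Cᴴ * C := by rw [hC1, hC2]
  have hdet : Q.det = C.det * C.det := by
    rw [hC, Matrix.det_mul, Matrix.conjTranspose_eq_transpose_of_trivial, Matrix.det_transpose]
  have hQd := hQ.det_pos
  have hCd : C.det ≠ 0 := by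
    intro h
    rw [hdet, h] at hQd
    simp at hQd
  have hCu : IsUnit C := (Matrix.isUnit_iff_isUnit_det C).2 (isUnit_iff_ne_zero.2 hCd)
  have hM : (C * P * Cᴴ).PosDef := by
    have := hCu.posDef_star_right_conjugate_iff (x := P)
    exact this.2 hP
  have h1 := logdet_le_trace hM
  have h2 : (C * P * Cᴴ).det = P.det * Q.det := by
    rw [Matrix.det_mul, Matrix.det_mul, hC, Matrix.det_mul]; ring
  have h3 : (C * P * Cᴴ).trace = (P * Q).trace := by
    rw [Matrix.trace_mul_comm, ← Matrix.mul_assoc, ← hC, Matrix.trace_mul_comm]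
  rw [h2, h3, Real.log_mul hP.det_pos.ne' hQ.det_pos.ne'] at h1
  exact h1

/-- Row A (ii). -/
theorem logdet_concave {P Q : Matrix n n ℝ} (hP : P.PosDef) (hQ : Q.PosDef) :
    Real.log P.det + Real.log Q.det ≤ 2 * Real.log (((1 / 2 : ℝ) • (P + Q)).det) := by
  have hA : ((1 / 2 : ℝ) • (P + Q)).PosDef := (hP.add hQ).smul (by norm_num)
  have hAi := hA.inv
  have h1 := logdet_add_le hAi hP
  have h2 := logdet_add_le hAi hQ
  have h3 : (((1 / 2 : ℝ) • (P + Q))⁻¹).det = (((1 / 2 : ℝ) • (P + Q)).det)⁻¹ := by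
    rw [Matrix.det_nonsing_inv, Ring.inverse_eq_inv']
  rw [h3, Real.log_inv] at h1 h2
  have h4 : (((1 / 2 : ℝ) • (P + Q))⁻¹ * P).trace + (((1 / 2 : ℝ) • (P + Q))⁻¹ * Q).trace =
      2 * Fintype.card n := by
    rw [← Matrix.trace_add, ← Matrix.mul_add]
    have hAdet : IsUnit (((1 / 2 : ℝ) • (P + Q)).det) := isUnit_iff_ne_zero.2 hA.det_pos.ne'
    have h5 : P + Q = (2 : ℝ) • ((1 / 2 : ℝ) • (P + Q)) := by
      rw [smul_smul]; norm_num
    have h6 : ((1 / 2 : ℝ) • (P + Q))⁻¹ * (P + Q) = (2 : ℝ) • (1 : Matrix n n ℝ) := by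
      generalize (1 / 2 : ℝ) • (P + Q) = A at hAdet h5
      rw [h5, Matrix.mul_smul, Matrix.nonsing_inv_mul _ hAdet]
    rw [h6, Matrix.trace_smul, Matrix.trace_one, smul_eq_mul]
  linarith

/-- Row A (iii). -/
theorem E_nonneg {X : Matrix n n ℝ} (hX : X.PosSemidef) {σ : ℝ} (hσ : 0 < σ) : 0 ≤ E σ X := by
  unfold E
  have h1 : (1 + σ⁻¹ • X).PosDef :=
    Matrix.PosDef.add_posSemidef Matrix.PosDef.one (hX.smul (by positivity))
  have h2 := logdet_le_trace h1
  rw [Matrix.trace_add, Matrix.trace_one, Matrix.trace_smul, smul_eq_mul] at h2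
  have h3 : Real.log (1 + σ⁻¹ • X).det ≤ σ⁻¹ * X.trace := by linarith
  have h4 := mul_le_mul_of_nonneg_left h3 hσ.le
  have h5 : σ * (σ⁻¹ * X.trace) = X.trace := by field_simp
  linarith

end A

end Vale.Agent.H24.TH
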