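import Vale.Agent.H24.TH.A

/-!
Row B: interaction inequality for `log det`.
-/

namespace Vale.Agent.H24.TH

open Matrix Finset Filter

set_option linter.unusedSectionVars false

section B
variable {n : Type*} [Fintype n] [DecidableEq n]

theorem b_posDef {X : Matrix n n ℝ} (hX : X.PosSemidef) {c : ℝ} (hc : 0 ≤ c) :
    (1 + c • X).PosDef :=
  Matrix.PosDef.add_posSemidef Matrix.PosDef.one (hX.smul hc)

theorem b_unit {X : Matrix n n ℝ} (hX : X.PosSemidef) {c : ℝ} (hc : 0 ≤ c) :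
    IsUnit (1 + c • X).det := isUnit_iff_ne_zero.2 (b_posDef hX hc).det_pos.ne'

/-- `g(X/σ) = 1 - (1 + X/σ)⁻¹` -/
theorem gg_eq {X : Matrix n n ℝ} (hX : X.PosSemidef) {σ : ℝ} (hσ : 0 < σ) :
    gg σ X = 1 - (1 + σ⁻¹ • X)⁻¹ := by
  have hσi : 0 ≤ σ⁻¹ := by positivity
  have hu := b_unit hX hσi
  have h1 : σ • (1 : Matrix n n ℝ) + X = σ • (1 + σ⁻¹ • X) := by
    rw [smul_add, smul_smul, mul_inv_cancel₀ hσ.ne', one_smul]
  have h2 : (σ • (1 : Matrix n n ℝ) + X)⁻¹ = σ⁻¹ • (1 + σ⁻¹ • X)⁻¹ := by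
    rw [h1]
    apply Matrix.inv_eq_right_inv
    rw [Matrix.smul_mul, Matrix.mul_smul, smul_smul, mul_inv_cancel₀ hσ.ne', one_smul,
      Matrix.mul_nonsing_inv _ hu]
  unfold gg
  rw [h2, Matrix.mul_smul, ← Matrix.smul_mul]
  have h3 : σ⁻¹ • X = (1 + σ⁻¹ • X) - 1 := by abel
  conv_lhs => rw [h3]
  rw [Matrix.sub_mul, Matrix.one_mul]
  rw [← h3, Matrix.mul_nonsing_inv _ hu]

theorem gg_posSemidef {X : Matrix n n ℝ} (hX : X.PosSemidef) {σ : ℝ} (hσ : 0 < σ) :
    (gg σ X).PosSemidef := by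
  have hσi : 0 ≤ σ⁻¹ := by positivity
  have hu := b_unit hX hσi
  have hA := b_posDef hX hσi
  have hY : (σ⁻¹ • X).PosSemidef := hX.smul hσi
  rw [gg_eq hX hσ]
  generalize σ⁻¹ • X = Y at hu hA hY
  have hYY : (Y * Y).PosSemidef := by
    have := Matrix.posSemidef_conjTranspose_mul_self Y
    rwa [hY.isHermitian.eq] at this
  have h1 : (Y + Y * Y).PosSemidef := hY.add hYY
  have h2 := h1.mul_mul_conjTranspose_same ((1 + Y)⁻¹)
  have h3 : ((1 + Y)⁻¹)ᴴ = (1 + Y)⁻¹ := hA.inv.isHermitian.eq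
  rw [h3] at h2
  have h4 : Y + Y * Y = (1 + Y) * (1 + Y) - (1 + Y) := by noncomm_ring
  rw [h4, Matrix.mul_sub, ← Matrix.mul_assoc, Matrix.nonsing_inv_mul _ hu, Matrix.one_mul,
    Matrix.sub_mul, Matrix.mul_nonsing_inv _ hu, Matrix.one_mul] at h2
  exact h2

/-- Row B. -/
theorem logdet_interaction {X Y : Matrix n n ℝ}
    (hX : X.PosSemidef) (hY : Y.PosSemidef) {σ : ℝ} (hσ : 0 < σ) :
    Real.log (1 + σ⁻¹ • (X + Y)).det ≤
      Real.log (1 + σ⁻¹ • X).det + Real.log (1 + σ⁻¹ • Y).det - (gg σ X * gg σ Y).trace := by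
  have hσi : 0 ≤ σ⁻¹ := by positivity
  have huX := b_unit hX hσi
  have huY := b_unit hY hσi
  have hAX := b_posDef hX hσi
  have hAY := b_posDef hY hσi
  have hGX := gg_posSemidef hX hσ
  have hGY := gg_posSemidef hY hσ
  have heX := gg_eq hX hσ
  have heY := gg_eq hY hσ
  rw [smul_add]
  generalize gg σ X = G at *
  generalize gg σ Y = H at *
  generalize σ⁻¹ • X = A at *
  generalize σ⁻¹ • Y = B at *
  have hfac : 1 + (A + B) = (1 + A) * (1 - G * H) * (1 + B) := by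
    have e1 : (1 + A) * G = A := by
      rw [heX, Matrix.mul_sub, Matrix.mul_nonsing_inv _ huX, Matrix.mul_one]; abel
    have e2 : H * (1 + B) = B := by
      rw [heY, Matrix.sub_mul, Matrix.nonsing_inv_mul _ huY, Matrix.one_mul]; abel
    calc 1 + (A + B) = (1 + A) * (1 + B) - A * B := by noncomm_ring
      _ = (1 + A) * (1 + B) - ((1 + A) * G) * (H * (1 + B)) := by rw [e1, e2]
      _ = _ := by noncomm_ring
  obtain ⟨C, hC, hC1, hC2⟩ := exists_sqrt hGX
  have hdet : (1 - G * H).det = (1 - C * H * C).det := by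
    rw [← hC2, Matrix.mul_assoc, Matrix.det_one_sub_mul_comm, Matrix.mul_assoc]
  have hpos : (1 - C * H * C).PosDef := by
    have h1 : 1 - C * H * C = (1 + A)⁻¹ + C * (1 + B)⁻¹ * C := by
      have e3 : (1 + A)⁻¹ = 1 - C * C := by rw [hC2, heX]; abel
      have e4 : (1 + B)⁻¹ = 1 - H := by rw [heY]; abel
      rw [e3, e4]; noncomm_ring
    rw [h1]
    refine Matrix.PosDef.add_posSemidef hAX.inv ?_
    have h2 := hAY.inv.posSemidef.mul_mul_conjTranspose_same C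
    rwa [hC1] at h2
  have h5 := logdet_le_trace hpos
  have h6 : (1 - C * H * C).trace = Fintype.card n - (G * H).trace := by
    rw [Matrix.trace_sub, Matrix.trace_one, Matrix.trace_mul_comm, ← Matrix.mul_assoc, hC2]
  rw [hfac, Matrix.det_mul, Matrix.det_mul, hdet, Real.log_mul, Real.log_mul]
  · rw [h6] at h5
    linarith
  · exact hAX.det_pos.ne'
  · exact hpos.det_pos.ne'
  · exact mul_ne_zero hAX.det_pos.ne' hpos.det_pos.ne'
  · exact hAY.det_pos.ne'

end B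

end Vale.Agent.H24.TH
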