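import Vale.Agent.H24.TH.Defs

/-! P075 row C: operator monotonicity of `g` inside the trace. -/

namespace Vale.Agent.H24.TH

open Matrix Finset

section general
variable {n : Type*} [Fintype n] [DecidableEq n]

open scoped MatrixOrder in
theorem trC_mul_nonneg {G H : Matrix n n ℝ} (hG : G.PosSemidef) (hH : H.PosSemidef) :
    0 ≤ (G * H).trace := by
  obtain ⟨C, rfl⟩ := CStarAlgebra.nonneg_iff_eq_star_mul_self.mp hG.nonneg
  rw [Matrix.star_eq_conjTranspose]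
  have h := (hH.mul_mul_conjTranspose_same C).trace_nonneg
  have e : (Cᴴ * C * H).trace = (C * H * Cᴴ).trace := by
    rw [Matrix.mul_assoc, Matrix.trace_mul_comm]
  rw [e]
  exact h

omit [Fintype n] in
theorem addC_posDef {P : Matrix n n ℝ} (hP : P.PosSemidef) {σ : ℝ} (hσ : 0 < σ) :
    (σ • (1 : Matrix n n ℝ) + P).PosDef :=
  (Matrix.PosDef.one.smul hσ).add_posSemidef hP

theorem invC_antitone {A D : Matrix n n ℝ} (hA : A.PosDef) (hD : D.PosSemidef) :
    (A⁻¹ - (A + D)⁻¹).PosSemidef := by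
  have hB : (A + D).PosDef := hA.add_posSemidef hD
  have hAu : IsUnit A.det := (Matrix.isUnit_iff_isUnit_det A).mp hA.isUnit
  have hBu : IsUnit (A + D).det := (Matrix.isUnit_iff_isUnit_det _).mp hB.isUnit
  have hinner : (D + D * A⁻¹ * D).PosSemidef := by
    have h1 := hA.inv.posSemidef.mul_mul_conjTranspose_same D
    rw [hD.1.eq] at h1
    exact hD.add h1
  have h2 := hinner.mul_mul_conjTranspose_same (A + D)⁻¹
  rw [hB.inv.1.eq] at h2
  have e : A⁻¹ - (A + D)⁻¹ = (A + D)⁻¹ * (D + D * A⁻¹ * D) * (A + D)⁻¹ := by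
    have e1 : (A + D) * (A⁻¹ - (A + D)⁻¹) * (A + D) = D + D * A⁻¹ * D := by
      rw [Matrix.mul_sub, Matrix.mul_nonsing_inv _ hBu, Matrix.sub_mul, Matrix.one_mul]
      have : (A + D) * A⁻¹ * (A + D) = A + D + D + D * A⁻¹ * D := by
        rw [Matrix.add_mul, Matrix.mul_nonsing_inv _ hAu, Matrix.add_mul, Matrix.one_mul,
          Matrix.mul_add, Matrix.mul_assoc D A⁻¹ A, Matrix.nonsing_inv_mul _ hAu, Matrix.mul_one]
        abel
      rw [this]
      abel
    rw [← e1]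
    rw [Matrix.mul_assoc, Matrix.mul_assoc, Matrix.mul_assoc, Matrix.mul_nonsing_inv _ hBu,
      Matrix.mul_one, ← Matrix.mul_assoc, Matrix.nonsing_inv_mul _ hBu, Matrix.one_mul]
  rw [e]
  exact h2

theorem ggC_eq {P : Matrix n n ℝ} (hP : P.PosSemidef) {σ : ℝ} (hσ : 0 < σ) :
    gg σ P = 1 - σ • (σ • (1 : Matrix n n ℝ) + P)⁻¹ := by
  have hA := addC_posDef hP hσ
  have hAu : IsUnit (σ • (1 : Matrix n n ℝ) + P).det :=
    (Matrix.isUnit_iff_isUnit_det _).mp hA.isUnit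
  have e : P = (σ • (1 : Matrix n n ℝ) + P) - σ • (1 : Matrix n n ℝ) := by abel
  unfold gg
  nth_rewrite 1 [e]
  rw [Matrix.sub_mul, Matrix.mul_nonsing_inv _ hAu, Matrix.smul_mul, Matrix.one_mul]

theorem ggC_posSemidef {P : Matrix n n ℝ} (hP : P.PosSemidef) {σ : ℝ} (hσ : 0 < σ) :
    (gg σ P).PosSemidef := by
  have hA := addC_posDef hP hσ
  rw [ggC_eq hP hσ]
  have h := (invC_antitone (Matrix.PosDef.one.smul hσ) hP).smul hσ.le
  have e : σ • ((σ • (1 : Matrix n n ℝ))⁻¹ - (σ • (1 : Matrix n n ℝ) + P)⁻¹) =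
      1 - σ • (σ • (1 : Matrix n n ℝ) + P)⁻¹ := by
    rw [smul_sub]
    congr 1
    have : (σ • (1 : Matrix n n ℝ))⁻¹ = σ⁻¹ • (1 : Matrix n n ℝ) := by
      apply Matrix.inv_eq_right_inv
      rw [Matrix.smul_mul, Matrix.mul_smul, Matrix.one_mul, smul_smul, mul_inv_cancel₀ hσ.ne',
        one_smul]
    rw [this, smul_smul, mul_inv_cancel₀ hσ.ne', one_smul]
  rw [← e]
  exact h

theorem ggC_mono {P P' : Matrix n n ℝ} (hP : P.PosSemidef) (hP' : P'.PosSemidef)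
    {σ : ℝ} (hσ : 0 < σ) : (gg σ (P + P') - gg σ P).PosSemidef := by
  rw [ggC_eq hP hσ, ggC_eq (hP.add hP') hσ]
  have h := (invC_antitone (addC_posDef hP hσ) hP').smul hσ.le
  have e : (1 - σ • (σ • (1 : Matrix n n ℝ) + (P + P'))⁻¹) -
      (1 - σ • (σ • (1 : Matrix n n ℝ) + P)⁻¹) =
      σ • ((σ • (1 : Matrix n n ℝ) + P)⁻¹ - (σ • (1 : Matrix n n ℝ) + P + P')⁻¹) := by
    rw [smul_sub, add_assoc]
    abel
  rw [e]
  exact h

/-- Row C. -/
theorem trace_gg_mono {P Q P' Q' : Matrix n n ℝ}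
    (hP : P.PosSemidef) (hQ : Q.PosSemidef) (hP' : P'.PosSemidef) (hQ' : Q'.PosSemidef)
    {σ : ℝ} (hσ : 0 < σ) :
    (gg σ P * gg σ Q).trace ≤ (gg σ (P + P') * gg σ (Q + Q')).trace := by
  have h1 : (gg σ P * gg σ Q).trace ≤ (gg σ (P + P') * gg σ Q).trace := by
    have h := trC_mul_nonneg (ggC_mono hP hP' hσ) (ggC_posSemidef hQ hσ)
    rw [Matrix.sub_mul, Matrix.trace_sub] at h
    linarith
  have h2 : (gg σ (P + P') * gg σ Q).trace ≤ (gg σ (P + P') * gg σ (Q + Q')).trace := by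
    have h := trC_mul_nonneg (ggC_posSemidef (hP.add hP') hσ) (ggC_mono hQ hQ' hσ)
    rw [Matrix.mul_sub, Matrix.trace_sub] at h
    linarith
  exact h1.trans h2

end general

end Vale.Agent.H24.TH
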