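import Vale.Agent.H24.TH.A
import Vale.Agent.H24.TH.B

/-!
Row D1: the one-step inequality for one Gram matrix.
-/

namespace Vale.Agent.H24.TH

open Matrix Finset Filter

set_option linter.unusedSectionVars false

section D1
variable {n : Type*} [Fintype n] [DecidableEq n]
variable {α : Type*} [Fintype α] [DecidableEq α]

theorem d1_ZZ : Z α * Z α = 1 := by
  unfold Z
  rw [Matrix.diagonal_mul_diagonal, ← Matrix.diagonal_one]
  congr 1
  funext x
  unfold sg
  split_ifs <;> norm_num

theorem d1_Zinv : (Z α)⁻¹ = Z α := Matrix.inv_eq_right_inv d1_ZZ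

theorem d1_Zt : (Z α)ᴴ = Z α := by
  unfold Z
  rw [Matrix.diagonal_conjTranspose]
  congr 1

theorem d1_detZ : (Z α).det * (Z α).det = 1 := by
  rw [← Matrix.det_mul, d1_ZZ, Matrix.det_one]

theorem d1_posDef {X : Matrix n n ℝ} (hX : X.PosSemidef) {c : ℝ} (hc : 0 ≤ c) :
    (1 + c • X).PosDef :=
  Matrix.PosDef.add_posSemidef Matrix.PosDef.one (hX.smul hc)

theorem d1_gg (X : Matrix (Bool × α) (Bool × α) ℝ) (σ : ℝ) :
    gg σ (Z α * X * Z α) = Z α * gg σ X * Z α := by
  unfold gg
  have h1 : σ • (1 : Matrix (Bool × α) (Bool × α) ℝ) + Z α * X * Z α =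
      Z α * (σ • (1 : Matrix (Bool × α) (Bool × α) ℝ) + X) * Z α := by
    rw [Matrix.mul_add, Matrix.add_mul, Matrix.mul_smul, Matrix.smul_mul, Matrix.mul_one, d1_ZZ]
  rw [h1, Matrix.mul_inv_rev, Matrix.mul_inv_rev, d1_Zinv]
  calc Z α * X * Z α * (Z α * ((σ • (1 : Matrix (Bool × α) (Bool × α) ℝ) + X)⁻¹ * Z α))
      = Z α * X * (Z α * Z α) * (σ • (1 : Matrix (Bool × α) (Bool × α) ℝ) + X)⁻¹ * Z α := by
        simp only [Matrix.mul_assoc]
    _ = _ := by rw [d1_ZZ, Matrix.mul_one]; simp only [Matrix.mul_assoc]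

theorem d1_det_conj (X : Matrix (Bool × α) (Bool × α) ℝ) (c : ℝ) :
    (1 + c • (Z α * X * Z α)).det = (1 + c • X).det := by
  have h1 : 1 + c • (Z α * X * Z α) = Z α * (1 + c • X) * Z α := by
    rw [Matrix.mul_add, Matrix.add_mul, Matrix.mul_smul, Matrix.smul_mul, Matrix.mul_one, d1_ZZ]
  rw [h1, Matrix.det_mul, Matrix.det_mul, mul_right_comm, d1_detZ, one_mul]

theorem d1_det_block (X : Matrix (Bool × α) (Bool × α) ℝ) (c : ℝ) :
    (1 + c • (X + Z α * X * Z α)).det = ∏ a : Bool, (1 + (2 * c) • child X a a).det := by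
  have h1 : 1 + c • (X + Z α * X * Z α) =
      (Matrix.blockDiagonal (fun a : Bool => 1 + (2 * c) • child X a a)).submatrix
        (Equiv.prodComm Bool α) (Equiv.prodComm Bool α) := by
    ext ⟨a, i⟩ ⟨b, j⟩
    simp only [Matrix.add_apply, Matrix.smul_apply, Matrix.submatrix_apply,
      Equiv.prodComm_apply, Prod.swap_prod_mk, Matrix.blockDiagonal_apply, child, Z,
      Matrix.diagonal_mul, Matrix.mul_diagonal, Matrix.one_apply, Prod.mk.injEq, smul_eq_mul, sg]
    cases a <;> cases b <;> simp <;> ring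
  rw [h1, Matrix.det_submatrix_equiv_self, Matrix.det_blockDiagonal]

/-- Row D1: the one-step inequality for one Gram matrix. -/
theorem one_step_E {X : Matrix (Bool × α) (Bool × α) ℝ} (hX : X.PosSemidef)
    (Y : Bool → Bool → Matrix α α ℝ) (hY : ∀ a b, (Y a b).PosSemidef)
    (hXY : ∀ a, Y a false + Y a true = child X a a) {σ : ℝ} (hσ : 0 < σ) :
    E σ X + σ / 2 * (gg σ X * Z α * gg σ X * Z α).trace ≤
      ∑ a : Bool, ∑ b : Bool, E (σ / 4) (Y a b) := by
  have hσi : 0 ≤ σ⁻¹ := by positivity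
  have hXt : (Z α * X * Z α).PosSemidef := by
    have := hX.mul_mul_conjTranspose_same (Z α)
    rwa [d1_Zt] at this
  have hB := logdet_interaction hX hXt hσ
  rw [d1_gg, d1_det_conj, d1_det_block] at hB
  have htr : (gg σ X * (Z α * gg σ X * Z α)).trace = (gg σ X * Z α * gg σ X * Z α).trace := by
    simp only [Matrix.mul_assoc]
  rw [htr] at hB
  have hchild : ∀ a, (child X a a).PosSemidef := fun a => by
    rw [← hXY a]; exact (hY a false).add (hY a true)
  have hpos : ∀ a, 0 < (1 + (2 * σ⁻¹) • child X a a).det := fun a =>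
    (d1_posDef (hchild a) (by positivity)).det_pos
  rw [Real.log_prod (fun a _ => (hpos a).ne')] at hB
  have hA : ∀ a, Real.log (1 + (σ / 4)⁻¹ • Y a false).det + Real.log (1 + (σ / 4)⁻¹ • Y a true).det
      ≤ 2 * Real.log (1 + (2 * σ⁻¹) • child X a a).det := by
    intro a
    have h1 := logdet_concave (d1_posDef (hY a false) (c := (σ / 4)⁻¹) (by positivity))
      (d1_posDef (hY a true) (c := (σ / 4)⁻¹) (by positivity))
    have h2 : (1 / 2 : ℝ) • ((1 + (σ / 4)⁻¹ • Y a false) + (1 + (σ / 4)⁻¹ • Y a true)) =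
        1 + (2 * σ⁻¹) • child X a a := by
      rw [← hXY a]
      ext i j
      simp only [Matrix.smul_apply, Matrix.add_apply, smul_eq_mul]
      field_simp
      ring
    rwa [h2] at h1
  have htrace : X.trace = ∑ a : Bool, (child X a a).trace := by
    simp only [Matrix.trace, Matrix.diag, child]
    rw [Fintype.sum_prod_type]
  have htr2 : ∀ a, (Y a false).trace + (Y a true).trace = (child X a a).trace := fun a => by
    rw [← Matrix.trace_add, hXY]
  have hA1 := hA true
  have hA0 := hA false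
  have ht1 := htr2 true
  have ht0 := htr2 false
  unfold E
  simp only [Fintype.sum_bool] at *
  rw [htrace]
  nlinarith [mul_le_mul_of_nonneg_left hB (by positivity : (0 : ℝ) ≤ σ / 2),
    mul_le_mul_of_nonneg_left hA1 (by positivity : (0 : ℝ) ≤ σ / 4),
    mul_le_mul_of_nonneg_left hA0 (by positivity : (0 : ℝ) ≤ σ / 4)]

end D1

end Vale.Agent.H24.TH
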