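import Vale.Agent.H24.TH.Defs
import Vale.Agent.H24.TH.C
import Vale.Agent.H24.TH.D1

/-!
P075 row D2: the one-step inequality for a triple of blocks.
-/

namespace Vale.Agent.H24.TH

open Matrix Finset

section general
variable {n : Type*} [Fintype n] [DecidableEq n]
variable {α : Type*} [Fintype α] [DecidableEq α]

theorem D2_sg_mul_self (b : Bool) : sg b * sg b = 1 := by
  cases b <;> simp [sg]

theorem D2_Z_mul_Z : Z α * Z α = 1 := by
  unfold Z
  rw [Matrix.diagonal_mul_diagonal]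
  simp [D2_sg_mul_self]

theorem D2_Z_transpose : (Z α)ᵀ = Z α := by
  unfold Z
  exact Matrix.diagonal_transpose _

theorem D2_Z_inv : (Z α)⁻¹ = Z α := Matrix.inv_eq_left_inv D2_Z_mul_Z

theorem D2_gg_conj (σ : ℝ) (P : Matrix (Bool × α) (Bool × α) ℝ) :
    gg σ (Z α * P * Z α) = Z α * gg σ P * Z α := by
  unfold gg
  have h1 : σ • (1 : Matrix (Bool × α) (Bool × α) ℝ) + Z α * P * Z α
      = Z α * (σ • (1 : Matrix (Bool × α) (Bool × α) ℝ) + P) * Z α := by
    rw [mul_add, add_mul, Matrix.mul_smul, Matrix.mul_one, Matrix.smul_mul, D2_Z_mul_Z]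
  rw [h1, Matrix.mul_inv_rev, Matrix.mul_inv_rev, D2_Z_inv]
  calc Z α * P * Z α * (Z α * ((σ • (1 : Matrix (Bool × α) (Bool × α) ℝ) + P)⁻¹ * Z α))
      = Z α * P * (Z α * Z α) * ((σ • (1 : Matrix (Bool × α) (Bool × α) ℝ) + P)⁻¹ * Z α) := by
        simp only [Matrix.mul_assoc]
    _ = Z α * (P * (σ • (1 : Matrix (Bool × α) (Bool × α) ℝ) + P)⁻¹) * Z α := by
        rw [D2_Z_mul_Z]
        simp only [Matrix.mul_assoc, Matrix.mul_one]

theorem D2_psd_tmul (A : Matrix n n ℝ) : (Aᵀ * A).PosSemidef := by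
  have := Matrix.posSemidef_conjTranspose_mul_self A
  simpa [Matrix.conjTranspose_eq_transpose_of_trivial] using this

theorem D2_psd_mult (A : Matrix n n ℝ) : (A * Aᵀ).PosSemidef := by
  have := Matrix.posSemidef_self_mul_conjTranspose A
  simpa [Matrix.conjTranspose_eq_transpose_of_trivial] using this

theorem D2_psd_conj {P : Matrix (Bool × α) (Bool × α) ℝ} (hP : P.PosSemidef) :
    (Z α * P * Z α).PosSemidef := by
  have := hP.mul_mul_conjTranspose_same (Z α)
  simpa [Matrix.conjTranspose_eq_transpose_of_trivial, D2_Z_transpose] using this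

theorem D2_Jn_le (A B : Matrix (Bool × α) (Bool × α) ℝ) {σ : ℝ} (hσ : 0 < σ) :
    Jn σ A B ≤ (gg σ (Aᵀ * A + B * Bᵀ) * Z α * gg σ (Aᵀ * A + B * Bᵀ) * Z α).trace := by
  unfold Jn
  have h := trace_gg_mono (P := Aᵀ * A) (Q := Z α * (B * Bᵀ) * Z α) (P' := B * Bᵀ)
    (Q' := Z α * (Aᵀ * A) * Z α) (D2_psd_tmul A) (D2_psd_conj (D2_psd_mult B)) (D2_psd_mult B)
    (D2_psd_conj (D2_psd_tmul A)) hσ
  have h2 : Z α * (B * Bᵀ) * Z α + Z α * (Aᵀ * A) * Z α = Z α * (Aᵀ * A + B * Bᵀ) * Z α := by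
    rw [← add_mul, ← mul_add, add_comm (B * Bᵀ)]
  rw [h2, D2_gg_conj, D2_gg_conj] at h
  simpa only [Matrix.mul_assoc] using h

theorem D2_child_tmul (A : Matrix (Bool × α) (Bool × α) ℝ) (b : Bool) :
    child (Aᵀ * A) b b = (child A false b)ᵀ * child A false b + (child A true b)ᵀ * child A true b := by
  ext i j
  simp only [child, Matrix.mul_apply, Matrix.add_apply, Matrix.transpose_apply,
    Fintype.sum_prod_type, Fintype.sum_bool]
  ring

theorem D2_child_mult (B : Matrix (Bool × α) (Bool × α) ℝ) (b : Bool) :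
    child (B * Bᵀ) b b = child B b false * (child B b false)ᵀ + child B b true * (child B b true)ᵀ := by
  ext i j
  simp only [child, Matrix.mul_apply, Matrix.add_apply, Matrix.transpose_apply,
    Fintype.sum_prod_type, Fintype.sum_bool]
  ring

theorem D2_child_add (A B : Matrix (Bool × α) (Bool × α) ℝ) (a b : Bool) :
    child (A + B) a b = child A a b + child B a b := rfl

theorem D2_single (A B : Matrix (Bool × α) (Bool × α) ℝ) {σ : ℝ} (hσ : 0 < σ) :
    E σ (Aᵀ * A + B * Bᵀ) + σ / 2 * Jn σ A B ≤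
      ∑ b : Bool, ∑ c : Bool, E (σ / 4)
        ((child A (xor b c) b)ᵀ * child A (xor b c) b + child B b c * (child B b c)ᵀ) := by
  have hX : (Aᵀ * A + B * Bᵀ).PosSemidef := (D2_psd_tmul A).add (D2_psd_mult B)
  have h := one_step_E hX
    (fun b c => (child A (xor b c) b)ᵀ * child A (xor b c) b + child B b c * (child B b c)ᵀ)
    (fun b c => (D2_psd_tmul _).add (D2_psd_mult _))
    (by
      intro b
      rw [D2_child_add, D2_child_tmul, D2_child_mult]
      cases b <;> simp <;> abel) hσ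
  have hJ := D2_Jn_le A B hσ
  have h3 : σ / 2 * Jn σ A B ≤
      σ / 2 * (gg σ (Aᵀ * A + B * Bᵀ) * Z α * gg σ (Aᵀ * A + B * Bᵀ) * Z α).trace :=
    mul_le_mul_of_nonneg_left hJ (by positivity)
  linarith

/-- Row D2: the one-step inequality at a fixed level. -/
theorem one_step (F0 F1 F2 : Matrix (Bool × α) (Bool × α) ℝ) {σ : ℝ} (hσ : 0 < σ) :
    En σ F0 F1 F2 + σ / 2 * (Jn σ F0 F1 + Jn σ F1 F2 + Jn σ F2 F0) ≤
      ∑ a : Bool, ∑ b : Bool,
        En (σ / 4) (child F0 a b) (child F1 b (xor a b)) (child F2 (xor a b) a) := by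
  have h0 := D2_single F0 F1 hσ
  have h1 := D2_single F1 F2 hσ
  have h2 := D2_single F2 F0 hσ
  simp only [Fintype.sum_bool, Bool.xor_true, Bool.xor_false, Bool.true_xor, Bool.false_xor,
    Bool.not_true, Bool.not_false] at h0 h1 h2 ⊢
  unfold En
  linarith

end general

end Vale.Agent.H24.TH
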