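import Mathlib

/-!
Dyadic triangular Hilbert transform (P075, Q2): definitions for the finite model.
-/

namespace Vale.Agent.H24.TH

open Matrix Finset

/-- index type of a dyadic block of side `2 ^ j`; the leading `Bool` is the top digit -/
def Idx : ℕ → Type
  | 0 => Unit
  | (j + 1) => Bool × Idx j

instance instFintypeIdx : ∀ j, Fintype (Idx j)
  | 0 => inferInstanceAs (Fintype Unit)
  | (j + 1) => @instFintypeProd Bool (Idx j) _ (instFintypeIdx j)

instance instDecEqIdx : ∀ j, DecidableEq (Idx j)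
  | 0 => inferInstanceAs (DecidableEq Unit)
  | (j + 1) => @instDecidableEqProd Bool (Idx j) _ (instDecEqIdx j)

/-- Haar sign of the top digit -/
def sg (b : Bool) : ℝ := if b then -1 else 1

section general
variable {α : Type*} [Fintype α] [DecidableEq α]

/-- multiplication by the Haar sign -/
def Z (α : Type*) [DecidableEq α] : Matrix (Bool × α) (Bool × α) ℝ :=
  Matrix.diagonal (fun x => sg x.1)

/-- the unnormalised trilinear Haar form of a block -/
def T3 (F0 F1 F2 : Matrix (Bool × α) (Bool × α) ℝ) : ℝ :=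
  ∑ x0, ∑ x1, ∑ x2, F0 x0 x1 * F1 x1 x2 * F2 x2 x0 * (sg x0.1 * sg x1.1 * sg x2.1)

/-- sub-block -/
def child (F : Matrix (Bool × α) (Bool × α) ℝ) (a b : Bool) : Matrix α α ℝ :=
  fun i j => F (a, i) (b, j)

/-- `tr X - σ log det (1 + X/σ)` -/
noncomputable def E (σ : ℝ) (X : Matrix α α ℝ) : ℝ :=
  X.trace - σ * Real.log (1 + σ⁻¹ • X).det

/-- `g(X/σ)` with `g t = t/(1+t)` -/
noncomputable def gg (σ : ℝ) (X : Matrix α α ℝ) : Matrix α α ℝ :=
  X * (σ • (1 : Matrix α α ℝ) + X)⁻¹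

/-- energy of a triple of blocks at level `σ` -/
noncomputable def En (σ : ℝ) (F0 F1 F2 : Matrix α α ℝ) : ℝ :=
  E σ (F0ᵀ * F0 + F1 * F1ᵀ) + E σ (F1ᵀ * F1 + F2 * F2ᵀ) + E σ (F2ᵀ * F2 + F0 * F0ᵀ)

/-- interaction of `A` and `B` across the Haar sign -/
noncomputable def Jn (σ : ℝ) (A B : Matrix (Bool × α) (Bool × α) ℝ) : ℝ :=
  (gg σ (Aᵀ * A) * Z α * gg σ (B * Bᵀ) * Z α).trace

end general

/-- the total (local) variation of the dyadic triangular form of a triple of blocks -/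
noncomputable def V : (j : ℕ) → (F0 F1 F2 : Matrix (Idx j) (Idx j) ℝ) → ℝ
  | 0, _, _, _ => 0
  | (j + 1), F0, F1, F2 =>
      ((2 : ℝ) ^ (j + 1))⁻¹ * |T3 (α := Idx j) F0 F1 F2| +
        ∑ a : Bool, ∑ b : Bool,
          V j (child (α := Idx j) F0 a b) (child (α := Idx j) F1 b (xor a b))
            (child (α := Idx j) F2 (xor a b) a)

/-- total energy of a block of side `2^j`, truncated dyadic sum over levels -/
noncomputable def EnK (K : ℕ) (j : ℕ) (F0 F1 F2 : Matrix (Idx j) (Idx j) ℝ) : ℝ :=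
  ∑ i ∈ range (2 * K + 1), ((2 : ℝ) ^ i / 2 ^ K) *
    En (((2 : ℝ) ^ j * (2 ^ i / 2 ^ K)) ^ 2) F0 F1 F2

end Vale.Agent.H24.TH
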