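import Vale.Agent.H24.TH.Defs

namespace Vale.Agent.H24.TH

open Matrix Finset Filter

section general
variable {n : Type*} [Fintype n] [DecidableEq n]

/-- Row F: right singular vectors (columns of the orthogonal matrix `U`). -/
theorem spectral (A : Matrix n n ℝ) :
    ∃ (U : Matrix n n ℝ) (p : n → ℝ),
      U * Uᵀ = 1 ∧ Uᵀ * U = 1 ∧ (∀ i, 0 ≤ p i) ∧ (A * U)ᵀ * (A * U) = Matrix.diagonal p := by
  have hps : (Aᵀ * A).PosSemidef := by
    have := Matrix.posSemidef_conjTranspose_mul_self A
    rwa [Matrix.conjTranspose_eq_transpose_of_trivial] at this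
  have hH := hps.isHermitian
  have hU := (hH.eigenvectorUnitary).2
  set U : Matrix n n ℝ := (hH.eigenvectorUnitary : Matrix n n ℝ) with hUdef
  have h1 : U * star U = 1 := (Matrix.mem_unitaryGroup_iff).1 hU
  have h2 : star U * U = 1 := (Matrix.mem_unitaryGroup_iff').1 hU
  have hst : star U = Uᵀ := by
    rw [Matrix.star_eq_conjTranspose, Matrix.conjTranspose_eq_transpose_of_trivial]
  rw [hst] at h1 h2
  refine ⟨U, hH.eigenvalues, h1, h2, fun i => hps.eigenvalues_nonneg i, ?_⟩
  have hs := hH.spectral_theorem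
  have hs' : Aᵀ * A = U * Matrix.diagonal hH.eigenvalues * Uᵀ := by
    conv_lhs => rw [hs]
    rw [Unitary.conjStarAlgAut_apply, ← hUdef]
    rw [hst]
    rfl
  have key : ∀ M : Matrix n n ℝ, M = U * Matrix.diagonal hH.eigenvalues * Uᵀ →
      Uᵀ * (M * U) = Matrix.diagonal hH.eigenvalues := by
    intro M hM
    rw [hM]
    simp only [Matrix.mul_assoc]
    rw [h2, Matrix.mul_one, ← Matrix.mul_assoc, h2, Matrix.one_mul]
  rw [Matrix.transpose_mul, Matrix.mul_assoc, ← Matrix.mul_assoc Aᵀ A U]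
  exact key _ hs'

end general

end Vale.Agent.H24.TH
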