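import Vale.Agent.H24.TH.Defs

namespace Vale.Agent.H24.TH

open Matrix Finset Filter

section general
variable {n : Type*} [Fintype n] [DecidableEq n]
variable {α : Type*} [Fintype α] [DecidableEq α]

theorem g_inv (A U : Matrix n n ℝ) (p : n → ℝ)
    (hU : U * Uᵀ = 1) (hU' : Uᵀ * U = 1) (hp : ∀ i, 0 ≤ p i)
    (hA : (A * U)ᵀ * (A * U) = Matrix.diagonal p) {σ : ℝ} (hσ : 0 < σ) :
    (U * Matrix.diagonal (fun i => (σ + p i)⁻¹) * Uᵀ) * (σ • (1 : Matrix n n ℝ) + Aᵀ * A) = 1 ∧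
    (σ • (1 : Matrix n n ℝ) + Aᵀ * A) * (U * Matrix.diagonal (fun i => (σ + p i)⁻¹) * Uᵀ) = 1 ∧
    Aᵀ * A = U * Matrix.diagonal p * Uᵀ := by
  have h1 : Aᵀ * A = U * Matrix.diagonal p * Uᵀ := by
    rw [← hA, Matrix.transpose_mul]
    calc Aᵀ * A = (U * Uᵀ) * (Aᵀ * A) * (U * Uᵀ) := by rw [hU, Matrix.one_mul, Matrix.mul_one]
      _ = _ := by simp only [Matrix.mul_assoc]
  have h2 : σ • (1 : Matrix n n ℝ) + Aᵀ * A = U * Matrix.diagonal (fun i => σ + p i) * Uᵀ := by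
    have hd : Matrix.diagonal (fun i => σ + p i) = σ • (1 : Matrix n n ℝ) + Matrix.diagonal p := by
      ext i j
      by_cases hij : i = j
      · subst hij; simp
      · simp [hij]
    rw [hd, Matrix.mul_add, Matrix.add_mul, h1, Matrix.mul_smul, Matrix.mul_one,
      Matrix.smul_mul, hU]
  have hne : ∀ i, σ + p i ≠ 0 := fun i => by have := hp i; positivity
  have hd1 : Matrix.diagonal (fun i => (σ + p i)⁻¹) * Matrix.diagonal (fun i => σ + p i)
      = (1 : Matrix n n ℝ) := by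
    rw [Matrix.diagonal_mul_diagonal, ← Matrix.diagonal_one]
    congr 1
    ext i
    exact inv_mul_cancel₀ (hne i)
  have hd2 : Matrix.diagonal (fun i => σ + p i) * Matrix.diagonal (fun i => (σ + p i)⁻¹)
      = (1 : Matrix n n ℝ) := by
    rw [Matrix.diagonal_mul_diagonal, ← Matrix.diagonal_one]
    congr 1
    ext i
    exact mul_inv_cancel₀ (hne i)
  refine ⟨?_, ?_, h1⟩
  · rw [h2]
    calc U * Matrix.diagonal (fun i => (σ + p i)⁻¹) * Uᵀ *
          (U * Matrix.diagonal (fun i => σ + p i) * Uᵀ)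
        = U * (Matrix.diagonal (fun i => (σ + p i)⁻¹) * (Uᵀ * U) *
          Matrix.diagonal (fun i => σ + p i)) * Uᵀ := by simp only [Matrix.mul_assoc]
      _ = 1 := by rw [hU', Matrix.mul_one, hd1, Matrix.mul_one, hU]
  · rw [h2]
    calc U * Matrix.diagonal (fun i => σ + p i) * Uᵀ *
          (U * Matrix.diagonal (fun i => (σ + p i)⁻¹) * Uᵀ)
        = U * (Matrix.diagonal (fun i => σ + p i) * (Uᵀ * U) *
          Matrix.diagonal (fun i => (σ + p i)⁻¹)) * Uᵀ := by simp only [Matrix.mul_assoc]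
      _ = 1 := by rw [hU', Matrix.mul_one, hd2, Matrix.mul_one, hU]

/-- Row G: formula for the interaction in singular coordinates. -/
theorem Jn_eq (A B U W : Matrix (Bool × α) (Bool × α) ℝ) (p q : Bool × α → ℝ)
    (hU : U * Uᵀ = 1) (hU' : Uᵀ * U = 1) (hp : ∀ i, 0 ≤ p i)
    (hA : (A * U)ᵀ * (A * U) = Matrix.diagonal p)
    (hW : W * Wᵀ = 1) (hW' : Wᵀ * W = 1) (hq : ∀ i, 0 ≤ q i)
    (hB : (B * W)ᵀ * (B * W) = Matrix.diagonal q) {σ : ℝ} (hσ : 0 < σ) :
    Jn σ A B = ∑ i, ∑ j, p i / ((σ + p i) * (σ + q j)) * ((Uᵀ * Z α * B * W) i j) ^ 2 := by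
  obtain ⟨hAi1, hAi2, hAs⟩ := g_inv A U p hU hU' hp hA hσ
  obtain ⟨hBi1, hBi2, hBs⟩ := g_inv B W q hW hW' hq hB hσ
  -- gg of the first
  have hg1 : gg σ (Aᵀ * A) = U * Matrix.diagonal (fun i => p i / (σ + p i)) * Uᵀ := by
    unfold gg
    rw [Matrix.inv_eq_right_inv hAi2, hAs]
    calc U * Matrix.diagonal p * Uᵀ * (U * Matrix.diagonal (fun i => (σ + p i)⁻¹) * Uᵀ)
        = U * (Matrix.diagonal p * (Uᵀ * U) * Matrix.diagonal (fun i => (σ + p i)⁻¹)) * Uᵀ := by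
          simp only [Matrix.mul_assoc]
      _ = _ := by
          rw [hU', Matrix.mul_one, Matrix.diagonal_mul_diagonal]
          simp only [div_eq_mul_inv]
  have hpd : (σ • (1 : Matrix (Bool × α) (Bool × α) ℝ) + B * Bᵀ).PosDef := by
    refine Matrix.PosDef.add_posSemidef ?_ ?_
    · exact Matrix.PosDef.one.smul hσ
    · have := Matrix.posSemidef_self_mul_conjTranspose B
      rwa [Matrix.conjTranspose_eq_transpose_of_trivial] at this
  have hunit : IsUnit (σ • (1 : Matrix (Bool × α) (Bool × α) ℝ) + B * Bᵀ).det :=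
    (Matrix.isUnit_iff_isUnit_det _).1 hpd.isUnit
  set M : Matrix (Bool × α) (Bool × α) ℝ := W * Matrix.diagonal (fun i => (σ + q i)⁻¹) * Wᵀ with hM
  have hg2 : gg σ (B * Bᵀ) = B * M * Bᵀ := by
    unfold gg
    have e1 : B * M * Bᵀ * (σ • (1 : Matrix (Bool × α) (Bool × α) ℝ) + B * Bᵀ) = B * Bᵀ := by
      have e2 : Bᵀ * (σ • (1 : Matrix (Bool × α) (Bool × α) ℝ) + B * Bᵀ)
          = (σ • (1 : Matrix (Bool × α) (Bool × α) ℝ) + Bᵀ * B) * Bᵀ := by
        rw [Matrix.mul_add, Matrix.add_mul, Matrix.mul_smul, Matrix.smul_mul, Matrix.mul_one,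
          Matrix.one_mul, Matrix.mul_assoc]
      rw [Matrix.mul_assoc, e2, Matrix.mul_assoc B M, ← Matrix.mul_assoc M, hBi1, Matrix.one_mul]
    calc B * Bᵀ * (σ • (1 : Matrix (Bool × α) (Bool × α) ℝ) + B * Bᵀ)⁻¹
        = B * M * Bᵀ * (σ • (1 : Matrix (Bool × α) (Bool × α) ℝ) + B * Bᵀ) *
          (σ • (1 : Matrix (Bool × α) (Bool × α) ℝ) + B * Bᵀ)⁻¹ := by rw [e1]
      _ = B * M * Bᵀ := by
          rw [Matrix.mul_assoc (B * M * Bᵀ), Matrix.mul_nonsing_inv _ hunit, Matrix.mul_one]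
  unfold Jn
  rw [hg1, hg2]
  set C : Matrix (Bool × α) (Bool × α) ℝ := Uᵀ * Z α * B * W with hC
  have hZt : (Z α)ᵀ = Z α := by
    unfold Z
    exact Matrix.diagonal_transpose _
  have hCt : Cᵀ = Wᵀ * Bᵀ * Z α * U := by
    rw [hC]
    simp only [Matrix.transpose_mul, Matrix.transpose_transpose, hZt, Matrix.mul_assoc]
  have htr : (U * Matrix.diagonal (fun i => p i / (σ + p i)) * Uᵀ * Z α * (B * M * Bᵀ) * Z α).trace
      = (Matrix.diagonal (fun i => p i / (σ + p i)) * C *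
          Matrix.diagonal (fun i => (σ + q i)⁻¹) * Cᵀ).trace := by
    rw [hCt, hC, hM]
    rw [show U * Matrix.diagonal (fun i => p i / (σ + p i)) * Uᵀ * Z α *
        (B * (W * Matrix.diagonal (fun i => (σ + q i)⁻¹) * Wᵀ) * Bᵀ) * Z α
        = U * (Matrix.diagonal (fun i => p i / (σ + p i)) * Uᵀ * Z α *
        (B * (W * Matrix.diagonal (fun i => (σ + q i)⁻¹) * Wᵀ) * Bᵀ) * Z α) by
          simp only [Matrix.mul_assoc]]
    rw [Matrix.trace_mul_comm]
    simp only [Matrix.mul_assoc]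
  rw [htr, Matrix.trace]
  refine Finset.sum_congr rfl fun i _ => ?_
  rw [Matrix.diag_apply, Matrix.mul_apply]
  refine Finset.sum_congr rfl fun j _ => ?_
  rw [Matrix.mul_diagonal, Matrix.diagonal_mul, Matrix.transpose_apply]
  have h1 : σ + p i ≠ 0 := by have := hp i; positivity
  have h2 : σ + q j ≠ 0 := by have := hq j; positivity
  field_simp

end general

end Vale.Agent.H24.TH
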