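import Vale.Agent.H24.TH.Defs

/-! P075 row H: abstract Cauchy-Schwarz for one class. -/

namespace Vale.Agent.H24.TH

open Matrix Finset

section general
variable {n : Type*} [Fintype n] [DecidableEq n]

theorem rowH_quad (b : Matrix n n ℝ) (r e : n → ℝ) (hb : bᵀ * b = Matrix.diagonal r) :
    ∑ j, (∑ k, b j k * e k) ^ 2 = ∑ k, r k * e k ^ 2 := by
  have h1 : (b *ᵥ e) ⬝ᵥ (b *ᵥ e) = ∑ j, (∑ k, b j k * e k) ^ 2 := by
    simp only [dotProduct, Matrix.mulVec, sq]
  have h2 : (b *ᵥ e) ⬝ᵥ (b *ᵥ e) = ∑ k, r k * e k ^ 2 := by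
    rw [Matrix.dotProduct_mulVec, ← Matrix.mulVec_transpose, Matrix.mulVec_mulVec, hb]
    simp only [dotProduct, Matrix.mulVec_diagonal]
    exact Finset.sum_congr rfl fun k _ => by ring
  rw [← h1, h2]

theorem rowH_one (b : Matrix n n ℝ) (r e f : n → ℝ) (hb : bᵀ * b = Matrix.diagonal r)
    {q : ℝ} (hq : 0 < q) :
    |∑ j, ∑ k, f j * b j k * e k| ≤
      1 / 2 * (∑ j, q * f j ^ 2) + 1 / 2 * (∑ k, r k / q * e k ^ 2) := by
  have e1 : ∑ j, ∑ k, f j * b j k * e k = ∑ j, f j * (∑ k, b j k * e k) := by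
    refine Finset.sum_congr rfl fun j _ => ?_
    rw [Finset.mul_sum]
    exact Finset.sum_congr rfl fun k _ => by ring
  have e2 : ∑ k, r k / q * e k ^ 2 = ∑ j, (∑ k, b j k * e k) ^ 2 / q := by
    rw [← Finset.sum_div, rowH_quad b r e hb, Finset.sum_div]
    exact Finset.sum_congr rfl fun k _ => by ring
  rw [e1, e2]
  refine (Finset.abs_sum_le_sum_abs _ _).trans ?_
  rw [Finset.mul_sum, Finset.mul_sum, ← Finset.sum_add_distrib]
  refine Finset.sum_le_sum fun j _ => ?_
  set g := ∑ k, b j k * e k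
  have h0 : 0 ≤ (q * |f j| - |g|) ^ 2 / q := div_nonneg (sq_nonneg _) hq.le
  have h1 : (q * |f j| - |g|) ^ 2 / q = q * f j ^ 2 - 2 * (|f j| * |g|) + g ^ 2 / q := by
    rw [← sq_abs (f j), ← sq_abs g]
    field_simp
    ring
  rw [abs_mul]
  linarith

/-- Row H: abstract Cauchy-Schwarz for one class. -/
theorem class_bound (a b d : Matrix n n ℝ) (p r : n → ℝ)
    (hp : ∀ i, 0 ≤ p i) (hr : ∀ i, 0 ≤ r i)
    (hb : bᵀ * b = Matrix.diagonal r) (hd : dᵀ * d = Matrix.diagonal p)
    (s : n → n → Prop) [∀ i j, Decidable (s i j)] (t : n → n → Prop) [∀ i j, Decidable (t i j)] :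
    |∑ i, ∑ j, ∑ k, (if s i j ∧ t i k then a i j * b j k * d k i else 0)| ≤
      1 / 2 * (∑ i, ∑ j, if s i j then Real.sqrt (p i) * a i j ^ 2 else 0) +
      1 / 2 * (∑ i, ∑ k, if t i k then r k / Real.sqrt (p i) * d k i ^ 2 else 0) := by
  refine (Finset.abs_sum_le_sum_abs _ _).trans ?_
  rw [Finset.mul_sum, Finset.mul_sum, ← Finset.sum_add_distrib]
  refine Finset.sum_le_sum fun i _ => ?_
  rcases (hp i).eq_or_lt with h0 | hpos
  · have hcol : ∀ k, d k i = 0 := by
      have h1 : (dᵀ * d) i i = p i := by rw [hd]; simp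
      rw [Matrix.mul_apply, ← h0] at h1
      have h2 : ∀ k ∈ (Finset.univ : Finset n), 0 ≤ dᵀ i k * d k i := fun k _ => by
        rw [Matrix.transpose_apply]; exact mul_self_nonneg _
      intro k
      have h3 := (Finset.sum_eq_zero_iff_of_nonneg h2).mp h1 k (Finset.mem_univ k)
      rw [Matrix.transpose_apply] at h3
      exact mul_self_eq_zero.mp h3
    have hz : ∑ j, ∑ k, (if s i j ∧ t i k then a i j * b j k * d k i else 0) = 0 := by
      refine Finset.sum_eq_zero fun j _ => Finset.sum_eq_zero fun k _ => ?_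
      rw [hcol k]; simp
    rw [hz, abs_zero, ← h0, Real.sqrt_zero]
    simp
  · have hq : 0 < Real.sqrt (p i) := Real.sqrt_pos.mpr hpos
    have h := rowH_one b r (fun k => if t i k then d k i else 0)
      (fun j => if s i j then a i j else 0) hb hq
    have e1 : ∑ j, ∑ k, (if s i j ∧ t i k then a i j * b j k * d k i else 0) =
        ∑ j, ∑ k, (if s i j then a i j else 0) * b j k * (if t i k then d k i else 0) := by
      refine Finset.sum_congr rfl fun j _ => Finset.sum_congr rfl fun k _ => ?_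
      by_cases h1 : s i j <;> by_cases h2 : t i k <;> simp [h1, h2]
    have e2 : ∑ j, (if s i j then Real.sqrt (p i) * a i j ^ 2 else 0) =
        ∑ j, Real.sqrt (p i) * (if s i j then a i j else 0) ^ 2 := by
      refine Finset.sum_congr rfl fun j _ => ?_
      by_cases h1 : s i j <;> simp [h1]
    have e3 : ∑ k, (if t i k then r k / Real.sqrt (p i) * d k i ^ 2 else 0) =
        ∑ k, r k / Real.sqrt (p i) * (if t i k then d k i else 0) ^ 2 := by
      refine Finset.sum_congr rfl fun k _ => ?_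
      by_cases h1 : t i k <;> simp [h1]
    rw [e1, e2, e3]
    exact h

end general

end Vale.Agent.H24.TH
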