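import Vale.Agent.H24.TH.F
import Vale.Agent.H24.TH.G
import Vale.Agent.H24.TH.H

/-!
Dyadic triangular Hilbert transform (P075, Q2), row I: the trilinear Haar form of a block is
bounded by the interactions.
-/

set_option linter.unusedSectionVars false

namespace Vale.Agent.H24.TH

open Matrix Finset Filter

namespace RowI

section general
variable {n : Type*} [Fintype n] [DecidableEq n]
variable {α : Type*} [Fintype α] [DecidableEq α]

/-- scale selection: a positive number `m` lies in exactly one dyadic scale. -/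
theorem exists_scale {c : ℝ} (hc : 0 < c) {m : ℝ} (hm : 0 < m) :
    ∀ᶠ K : ℕ in atTop, ∃ i ∈ range (2 * K + 1),
      c * ((2 : ℝ) ^ i / 2 ^ K) ≤ Real.sqrt m ∧ Real.sqrt m < 2 * (c * ((2 : ℝ) ^ i / 2 ^ K)) := by
  have hs : 0 < Real.sqrt m := Real.sqrt_pos.mpr hm
  have hy : 0 < Real.sqrt m / c := div_pos hs hc
  set y := Real.sqrt m / c with hydef
  have h1 : ((2 : ℕ) : ℝ) ^ (Int.log 2 y) ≤ y := Int.zpow_log_le_self (by norm_num) hy
  have h2 : y < ((2 : ℕ) : ℝ) ^ (Int.log 2 y + 1) := Int.lt_zpow_succ_log_self (by norm_num) y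
  set N := Int.log 2 y with hN
  filter_upwards [eventually_ge_atTop N.natAbs] with K hK
  have hK' : -(K : ℤ) ≤ N ∧ N ≤ K := by omega
  obtain ⟨i, hi⟩ : ∃ i : ℕ, (i : ℤ) = N + K := ⟨(N + K).toNat, by omega⟩
  refine ⟨i, ?_, ?_⟩
  · rw [Finset.mem_range]; omega
  · have h3 : (2 : ℝ) ^ i / 2 ^ K = (2 : ℝ) ^ N := by
      rw [← zpow_natCast, ← zpow_natCast, ← zpow_sub₀ (by norm_num), hi]
      congr 1
      ring
    rw [h3]
    have h1' : (2 : ℝ) ^ N ≤ y := by simpa using h1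
    have h2' : y < (2 : ℝ) ^ N * 2 := by
      have : (2 : ℝ) ^ (N + 1) = (2 : ℝ) ^ N * 2 := by
        rw [zpow_add₀ (by norm_num)]; simp
      rw [← this]; simpa using h2
    constructor
    · calc c * (2 : ℝ) ^ N ≤ c * y := mul_le_mul_of_nonneg_left h1' hc.le
        _ = Real.sqrt m := by rw [hydef]; field_simp
    · calc Real.sqrt m = c * y := by rw [hydef]; field_simp
        _ < c * ((2 : ℝ) ^ N * 2) := mul_lt_mul_of_pos_left h2' hc
        _ = 2 * (c * (2 : ℝ) ^ N) := by ring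

/-- pointwise weight bound, `q ≤ p`. -/
theorem weight_le_aux1 {p q R : ℝ} (hp : 0 < p) (hq : 0 ≤ q) (hqp : q ≤ p) (hR : 0 < R)
    (h1 : R ≤ Real.sqrt p) (h2 : Real.sqrt p < 2 * R) :
    Real.sqrt p ≤ 32 * (R ^ 3 * (p / ((R ^ 2 + p) * (R ^ 2 + q)))) := by
  set s := Real.sqrt p with hs
  have hs0 : 0 < s := Real.sqrt_pos.mpr hp
  have hsp : s ^ 2 = p := Real.sq_sqrt hp.le
  have hR2 : R ^ 2 ≤ p := by
    rw [← hsp]; exact pow_le_pow_left₀ hR.le h1 2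
  have hden : (R ^ 2 + p) * (R ^ 2 + q) ≤ 4 * p ^ 2 := by nlinarith [sq_nonneg R]
  have hdpos : 0 < (R ^ 2 + p) * (R ^ 2 + q) := by positivity
  have hR3 : s ^ 3 ≤ 8 * R ^ 3 := by
    calc s ^ 3 ≤ (2 * R) ^ 3 := pow_le_pow_left₀ hs0.le h2.le 3
      _ = 8 * R ^ 3 := by ring
  have h3 : p / (4 * p ^ 2) ≤ p / ((R ^ 2 + p) * (R ^ 2 + q)) :=
    div_le_div_of_nonneg_left hp.le hdpos hden
  calc s = 32 * ((s ^ 3 / 8) * (p / (4 * p ^ 2))) := by
        rw [← hsp]; field_simp; norm_num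
    _ ≤ 32 * (R ^ 3 * (p / ((R ^ 2 + p) * (R ^ 2 + q)))) := by
        apply mul_le_mul_of_nonneg_left _ (by norm_num)
        apply mul_le_mul (by linarith) h3 (by positivity) (by positivity)

/-- pointwise weight bound, `p ≤ q`. -/
theorem weight_le_aux2 {p q R : ℝ} (hp : 0 ≤ p) (hq : 0 < q) (hpq : p ≤ q) (hR : 0 < R)
    (h1 : R ≤ Real.sqrt q) (h2 : Real.sqrt q < 2 * R) :
    p / Real.sqrt q ≤ 32 * (R ^ 3 * (p / ((R ^ 2 + p) * (R ^ 2 + q)))) := by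
  set s := Real.sqrt q with hs
  have hs0 : 0 < s := Real.sqrt_pos.mpr hq
  have hsp : s ^ 2 = q := Real.sq_sqrt hq.le
  have hR2 : R ^ 2 ≤ q := by
    rw [← hsp]; exact pow_le_pow_left₀ hR.le h1 2
  have hden : (R ^ 2 + p) * (R ^ 2 + q) ≤ 4 * q ^ 2 := by nlinarith [sq_nonneg R]
  have hdpos : 0 < (R ^ 2 + p) * (R ^ 2 + q) := by positivity
  have hR3 : s ^ 3 ≤ 8 * R ^ 3 := by
    calc s ^ 3 ≤ (2 * R) ^ 3 := pow_le_pow_left₀ hs0.le h2.le 3
      _ = 8 * R ^ 3 := by ring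
  have h3 : p / (4 * q ^ 2) ≤ p / ((R ^ 2 + p) * (R ^ 2 + q)) :=
    div_le_div_of_nonneg_left hp hdpos hden
  calc p / s = 32 * ((s ^ 3 / 8) * (p / (4 * q ^ 2))) := by
        rw [← hsp]; field_simp; ring
    _ ≤ 32 * (R ^ 3 * (p / ((R ^ 2 + p) * (R ^ 2 + q)))) := by
        apply mul_le_mul_of_nonneg_left _ (by norm_num)
        apply mul_le_mul (by linarith) h3 (by positivity) (by positivity)

/-- the weight of a pair of singular values -/
noncomputable def wt (p q : ℝ) : ℝ :=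
  if q ≤ p then Real.sqrt p else p / Real.sqrt q

theorem wt_le {c : ℝ} (hc : 0 < c) {p q : ℝ} (hp : 0 ≤ p) (hq : 0 ≤ q) :
    ∀ᶠ K : ℕ in atTop, wt p q ≤ 32 * ∑ i ∈ range (2 * K + 1),
      (c * ((2 : ℝ) ^ i / 2 ^ K)) ^ 3 * (p / (((c * ((2 : ℝ) ^ i / 2 ^ K)) ^ 2 + p) *
        ((c * ((2 : ℝ) ^ i / 2 ^ K)) ^ 2 + q))) := by
  have key : ∀ K : ℕ, ∀ i ∈ range (2 * K + 1),
      (c * ((2 : ℝ) ^ i / 2 ^ K)) ^ 3 * (p / (((c * ((2 : ℝ) ^ i / 2 ^ K)) ^ 2 + p) *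
        ((c * ((2 : ℝ) ^ i / 2 ^ K)) ^ 2 + q))) ≤ ∑ i ∈ range (2 * K + 1),
      (c * ((2 : ℝ) ^ i / 2 ^ K)) ^ 3 * (p / (((c * ((2 : ℝ) ^ i / 2 ^ K)) ^ 2 + p) *
        ((c * ((2 : ℝ) ^ i / 2 ^ K)) ^ 2 + q))) := by
    intro K i hi
    exact Finset.single_le_sum (f := fun i => (c * ((2 : ℝ) ^ i / 2 ^ K)) ^ 3 *
      (p / (((c * ((2 : ℝ) ^ i / 2 ^ K)) ^ 2 + p) * ((c * ((2 : ℝ) ^ i / 2 ^ K)) ^ 2 + q))))
      (fun j _ => by positivity) hi
  rcases hp.eq_or_lt with hp0 | hp0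
  · subst hp0
    refine Eventually.of_forall fun K => ?_
    have : wt 0 q = 0 := by unfold wt; split_ifs <;> simp
    rw [this]
    simp
  · by_cases hqp : q ≤ p
    · filter_upwards [exists_scale hc hp0] with K hK
      obtain ⟨i, hi, h1, h2⟩ := hK
      have hR : 0 < c * ((2 : ℝ) ^ i / 2 ^ K) := by positivity
      have := weight_le_aux1 hp0 hq hqp hR h1 h2
      have hw : wt p q = Real.sqrt p := by unfold wt; rw [if_pos hqp]
      rw [hw]
      exact this.trans (mul_le_mul_of_nonneg_left (key K i hi) (by norm_num))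
    · have hpq : p < q := not_le.mp hqp
      have hq0 : 0 < q := hp0.trans hpq
      filter_upwards [exists_scale hc hq0] with K hK
      obtain ⟨i, hi, h1, h2⟩ := hK
      have hR : 0 < c * ((2 : ℝ) ^ i / 2 ^ K) := by positivity
      have := weight_le_aux2 hp hq0 hpq.le hR h1 h2
      have hw : wt p q = p / Real.sqrt q := by unfold wt; rw [if_neg hqp]
      rw [hw]
      exact this.trans (mul_le_mul_of_nonneg_left (key K i hi) (by norm_num))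

theorem Z_transpose : (Z α)ᵀ = Z α := by
  unfold Z
  exact Matrix.diagonal_transpose _

theorem Z_mul_Z : Z α * Z α = 1 := by
  unfold Z
  rw [Matrix.diagonal_mul_diagonal, ← Matrix.diagonal_one]
  congr 1
  funext x
  rcases x with ⟨b, _⟩
  cases b <;> simp [sg]

theorem T3_eq (F0 F1 F2 : Matrix (Bool × α) (Bool × α) ℝ) :
    T3 F0 F1 F2 = (Z α * F0 * (Z α * F1) * (Z α * F2)).trace := by
  unfold T3
  rw [Matrix.trace]
  refine Finset.sum_congr rfl fun x0 _ => ?_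
  rw [Matrix.diag_apply, Matrix.mul_apply]
  rw [Finset.sum_comm]
  refine Finset.sum_congr rfl fun x2 _ => ?_
  rw [Matrix.mul_apply, Finset.sum_mul]
  refine Finset.sum_congr rfl fun x1 _ => ?_
  unfold Z
  rw [Matrix.diagonal_mul, Matrix.diagonal_mul, Matrix.diagonal_mul]
  ring

theorem T3_eq_coord (F0 F1 F2 U0 U1 U2 : Matrix (Bool × α) (Bool × α) ℝ)
    (h0 : U0 * U0ᵀ = 1) (h1 : U1 * U1ᵀ = 1) (h2 : U2 * U2ᵀ = 1) :
    T3 F0 F1 F2 = ∑ i, ∑ j, ∑ k, (U0ᵀ * Z α * F1 * U1) i j * (U1ᵀ * Z α * F2 * U2) j k *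
      (U2ᵀ * Z α * F0 * U0) k i := by
  have hsum : ∑ i, ∑ j, ∑ k, (U0ᵀ * Z α * F1 * U1) i j * (U1ᵀ * Z α * F2 * U2) j k *
      (U2ᵀ * Z α * F0 * U0) k i = ((U0ᵀ * Z α * F1 * U1) * (U1ᵀ * Z α * F2 * U2) *
      (U2ᵀ * Z α * F0 * U0)).trace := by
    generalize (U0ᵀ * Z α * F1 * U1) = a
    generalize (U1ᵀ * Z α * F2 * U2) = b
    generalize (U2ᵀ * Z α * F0 * U0) = d
    rw [Matrix.trace]
    refine Finset.sum_congr rfl fun i _ => ?_
    rw [Matrix.diag_apply, Matrix.mul_apply, Finset.sum_comm]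
    refine Finset.sum_congr rfl fun k _ => ?_
    rw [Matrix.mul_apply, Finset.sum_mul]
  rw [hsum, T3_eq]
  have e1 : (U0ᵀ * Z α * F1 * U1) * (U1ᵀ * Z α * F2 * U2) * (U2ᵀ * Z α * F0 * U0) =
      U0ᵀ * (Z α * F1 * (U1 * U1ᵀ) * (Z α * F2) * (U2 * U2ᵀ) * (Z α * F0) * U0) := by
    simp only [Matrix.mul_assoc]
  rw [e1, h1, h2, Matrix.mul_one, Matrix.mul_one,
    Matrix.trace_mul_comm U0ᵀ _, Matrix.mul_assoc (Z α * F1 * (Z α * F2) * (Z α * F0)) U0 U0ᵀ,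
    h0, Matrix.mul_one]
  rw [Matrix.trace_mul_comm (Z α * F1 * (Z α * F2)) (Z α * F0)]
  simp only [Matrix.mul_assoc]

theorem gram_coord (B W U : Matrix (Bool × α) (Bool × α) ℝ) (q : Bool × α → ℝ)
    (hU : U * Uᵀ = 1) (hB : (B * W)ᵀ * (B * W) = Matrix.diagonal q) :
    (Uᵀ * Z α * B * W)ᵀ * (Uᵀ * Z α * B * W) = Matrix.diagonal q := by
  have e1 : Uᵀ * Z α * B * W = Uᵀ * (Z α * (B * W)) := by simp only [Matrix.mul_assoc]
  rw [e1, Matrix.transpose_mul, Matrix.transpose_transpose, Matrix.transpose_mul, Z_transpose]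
  have e2 : (B * W)ᵀ * Z α * U * (Uᵀ * (Z α * (B * W))) =
      (B * W)ᵀ * (Z α * (U * Uᵀ) * Z α) * (B * W) := by simp only [Matrix.mul_assoc]
  rw [e2, hU, Matrix.mul_one, Z_mul_Z, Matrix.mul_one, hB]

/-- the three classes: combination of the three Cauchy-Schwarz bounds. -/
theorem three_classes (a b d : Matrix n n ℝ) (p q r : n → ℝ)
    (hp : ∀ i, 0 ≤ p i) (hq : ∀ i, 0 ≤ q i) (hr : ∀ i, 0 ≤ r i)
    (ha : aᵀ * a = Matrix.diagonal q) (hb : bᵀ * b = Matrix.diagonal r)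
    (hd : dᵀ * d = Matrix.diagonal p) :
    |∑ i, ∑ j, ∑ k, a i j * b j k * d k i| ≤
      1 / 2 * (∑ i, ∑ j, wt (p i) (q j) * a i j ^ 2) +
      1 / 2 * (∑ j, ∑ k, wt (q j) (r k) * b j k ^ 2) +
      1 / 2 * (∑ k, ∑ i, wt (r k) (p i) * d k i ^ 2) := by
  classical
  have H0 := class_bound a b d p r hp hr hb hd (fun i j => q j ≤ p i) (fun i k => r k ≤ p i)
  have H1 := class_bound b d a q p hq hp hd ha (fun j k => r k ≤ q j) (fun j i => p i < q j)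
  have H2 := class_bound d a b r q hr hq ha hb (fun k i => p i < r k) (fun k j => q j < r k)
  have s1 : (∑ j, ∑ k, ∑ i, (if r k ≤ q j ∧ p i < q j then b j k * d k i * a i j else 0)) =
      ∑ i, ∑ j, ∑ k, (if r k ≤ q j ∧ p i < q j then b j k * d k i * a i j else 0) := by
    rw [Finset.sum_comm (f := fun i j => ∑ k, (if r k ≤ q j ∧ p i < q j then
      b j k * d k i * a i j else 0))]
    refine Finset.sum_congr rfl fun j _ => ?_
    rw [Finset.sum_comm]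
  have s2 : (∑ k, ∑ i, ∑ j, (if p i < r k ∧ q j < r k then d k i * a i j * b j k else 0)) =
      ∑ i, ∑ j, ∑ k, (if p i < r k ∧ q j < r k then d k i * a i j * b j k else 0) := by
    rw [Finset.sum_comm]
    refine Finset.sum_congr rfl fun i _ => ?_
    rw [Finset.sum_comm]
  have hsplit : ∑ i, ∑ j, ∑ k, a i j * b j k * d k i =
      (∑ i, ∑ j, ∑ k, (if q j ≤ p i ∧ r k ≤ p i then a i j * b j k * d k i else 0)) +
      (∑ j, ∑ k, ∑ i, (if r k ≤ q j ∧ p i < q j then b j k * d k i * a i j else 0)) +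
      (∑ k, ∑ i, ∑ j, (if p i < r k ∧ q j < r k then d k i * a i j * b j k else 0)) := by
    rw [s1, s2, ← Finset.sum_add_distrib, ← Finset.sum_add_distrib]
    refine Finset.sum_congr rfl fun i _ => ?_
    rw [← Finset.sum_add_distrib, ← Finset.sum_add_distrib]
    refine Finset.sum_congr rfl fun j _ => ?_
    rw [← Finset.sum_add_distrib, ← Finset.sum_add_distrib]
    refine Finset.sum_congr rfl fun k _ => ?_
    by_cases h1 : q j ≤ p i
    · by_cases h2 : r k ≤ p i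
      · rw [if_pos ⟨h1, h2⟩, if_neg (by rintro ⟨_, h⟩; linarith),
          if_neg (by rintro ⟨h, _⟩; linarith)]
        ring
      · have h2' := not_le.mp h2
        rw [if_neg (by rintro ⟨_, h⟩; linarith), if_neg (by rintro ⟨_, h⟩; linarith),
          if_pos ⟨h2', by linarith⟩]
        ring
    · have h1' := not_le.mp h1
      by_cases h2 : r k ≤ q j
      · rw [if_neg (by rintro ⟨h, _⟩; linarith), if_pos ⟨h2, h1'⟩,
          if_neg (by rintro ⟨_, h⟩; linarith)]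
        ring
      · have h2' := not_le.mp h2
        rw [if_neg (by rintro ⟨h, _⟩; linarith), if_neg (by rintro ⟨h, _⟩; linarith),
          if_pos ⟨by linarith, h2'⟩]
        ring
  have wa : ∑ i, ∑ j, wt (p i) (q j) * a i j ^ 2 =
      (∑ i, ∑ j, if q j ≤ p i then Real.sqrt (p i) * a i j ^ 2 else 0) +
      (∑ j, ∑ i, if p i < q j then p i / Real.sqrt (q j) * a i j ^ 2 else 0) := by
    rw [Finset.sum_comm (f := fun j i => if p i < q j then
      p i / Real.sqrt (q j) * a i j ^ 2 else 0), ← Finset.sum_add_distrib]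
    refine Finset.sum_congr rfl fun i _ => ?_
    rw [← Finset.sum_add_distrib]
    refine Finset.sum_congr rfl fun j _ => ?_
    unfold wt
    by_cases h : q j ≤ p i
    · rw [if_pos h, if_pos h, if_neg (not_lt.mpr h)]; ring
    · rw [if_neg h, if_neg h, if_pos (not_le.mp h)]; ring
  have wb : ∑ j, ∑ k, wt (q j) (r k) * b j k ^ 2 =
      (∑ j, ∑ k, if r k ≤ q j then Real.sqrt (q j) * b j k ^ 2 else 0) +
      (∑ k, ∑ j, if q j < r k then q j / Real.sqrt (r k) * b j k ^ 2 else 0) := by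
    rw [Finset.sum_comm (f := fun k j => if q j < r k then
      q j / Real.sqrt (r k) * b j k ^ 2 else 0), ← Finset.sum_add_distrib]
    refine Finset.sum_congr rfl fun i _ => ?_
    rw [← Finset.sum_add_distrib]
    refine Finset.sum_congr rfl fun j _ => ?_
    unfold wt
    by_cases h : r j ≤ q i
    · rw [if_pos h, if_pos h, if_neg (not_lt.mpr h)]; ring
    · rw [if_neg h, if_neg h, if_pos (not_le.mp h)]; ring
  have wd : ∑ k, ∑ i, wt (r k) (p i) * d k i ^ 2 =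
      (∑ k, ∑ i, if p i < r k then Real.sqrt (r k) * d k i ^ 2 else 0) +
      (∑ i, ∑ k, if r k ≤ p i then r k / Real.sqrt (p i) * d k i ^ 2 else 0) := by
    rw [Finset.sum_comm (f := fun i k => if r k ≤ p i then
      r k / Real.sqrt (p i) * d k i ^ 2 else 0), ← Finset.sum_add_distrib]
    refine Finset.sum_congr rfl fun k _ => ?_
    rw [← Finset.sum_add_distrib]
    refine Finset.sum_congr rfl fun i _ => ?_
    unfold wt
    rcases lt_trichotomy (p i) (r k) with h | h | h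
    · rw [if_pos h.le, if_pos h, if_neg (not_le.mpr h)]; ring
    · rw [if_pos h.le, if_neg (not_lt.mpr h.ge), if_pos h.ge, h, Real.div_sqrt]; ring
    · rw [if_neg (not_le.mpr h), if_neg (not_lt.mpr h.le), if_pos h.le]; ring
  rw [hsplit, wa, wb, wd]
  refine (abs_add_three _ _ _).trans ?_
  linarith

end general

end RowI

section general
variable {α : Type*} [Fintype α] [DecidableEq α]

/-- Row I: bound of the trilinear Haar form by the interactions (eventually in `K`). -/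
theorem T3_bound (F0 F1 F2 : Matrix (Bool × α) (Bool × α) ℝ) {c : ℝ} (hc : 0 < c) :
    ∀ᶠ K : ℕ in atTop,
      |T3 F0 F1 F2| ≤ 16 * ∑ i ∈ range (2 * K + 1), (c * (2 ^ i / 2 ^ K)) ^ 3 *
        (Jn ((c * (2 ^ i / 2 ^ K)) ^ 2) F0 F1 + Jn ((c * (2 ^ i / 2 ^ K)) ^ 2) F1 F2 +
          Jn ((c * (2 ^ i / 2 ^ K)) ^ 2) F2 F0) := by
  obtain ⟨U0, p, h0, h0', hp, hA0⟩ := spectral F0
  obtain ⟨U1, q, h1, h1', hq, hA1⟩ := spectral F1
  obtain ⟨U2, r, h2, h2', hr, hA2⟩ := spectral F2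
  have Ha := RowI.gram_coord F1 U1 U0 q h0 hA1
  have Hb := RowI.gram_coord F2 U2 U1 r h1 hA2
  have Hd := RowI.gram_coord F0 U0 U2 p h2 hA0
  have e1 : ∀ᶠ K : ℕ in atTop, ∀ i j, RowI.wt (p i) (q j) ≤ 32 * ∑ l ∈ range (2 * K + 1),
      (c * ((2 : ℝ) ^ l / 2 ^ K)) ^ 3 * (p i / (((c * ((2 : ℝ) ^ l / 2 ^ K)) ^ 2 + p i) *
        ((c * ((2 : ℝ) ^ l / 2 ^ K)) ^ 2 + q j))) := by
    rw [eventually_all]; intro i
    rw [eventually_all]; intro j
    exact RowI.wt_le hc (hp i) (hq j)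
  have e2 : ∀ᶠ K : ℕ in atTop, ∀ i j, RowI.wt (q i) (r j) ≤ 32 * ∑ l ∈ range (2 * K + 1),
      (c * ((2 : ℝ) ^ l / 2 ^ K)) ^ 3 * (q i / (((c * ((2 : ℝ) ^ l / 2 ^ K)) ^ 2 + q i) *
        ((c * ((2 : ℝ) ^ l / 2 ^ K)) ^ 2 + r j))) := by
    rw [eventually_all]; intro i
    rw [eventually_all]; intro j
    exact RowI.wt_le hc (hq i) (hr j)
  have e3 : ∀ᶠ K : ℕ in atTop, ∀ i j, RowI.wt (r i) (p j) ≤ 32 * ∑ l ∈ range (2 * K + 1),
      (c * ((2 : ℝ) ^ l / 2 ^ K)) ^ 3 * (r i / (((c * ((2 : ℝ) ^ l / 2 ^ K)) ^ 2 + r i) *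
        ((c * ((2 : ℝ) ^ l / 2 ^ K)) ^ 2 + p j))) := by
    rw [eventually_all]; intro i
    rw [eventually_all]; intro j
    exact RowI.wt_le hc (hr i) (hp j)
  filter_upwards [e1, e2, e3] with K E1 E2 E3
  have main := RowI.three_classes _ _ _ p q r hp hq hr Ha Hb Hd
  rw [← RowI.T3_eq_coord F0 F1 F2 U0 U1 U2 h0 h1 h2] at main
  refine main.trans ?_
  have gen : ∀ (p q : Bool × α → ℝ) (A B U W : Matrix (Bool × α) (Bool × α) ℝ)
      (hU : U * Uᵀ = 1) (hU' : Uᵀ * U = 1) (hp : ∀ i, 0 ≤ p i)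
      (hA : (A * U)ᵀ * (A * U) = Matrix.diagonal p)
      (hW : W * Wᵀ = 1) (hW' : Wᵀ * W = 1) (hq : ∀ i, 0 ≤ q i)
      (hB : (B * W)ᵀ * (B * W) = Matrix.diagonal q)
      (E : ∀ i j, RowI.wt (p i) (q j) ≤ 32 * ∑ l ∈ range (2 * K + 1),
      (c * ((2 : ℝ) ^ l / 2 ^ K)) ^ 3 * (p i / (((c * ((2 : ℝ) ^ l / 2 ^ K)) ^ 2 + p i) *
        ((c * ((2 : ℝ) ^ l / 2 ^ K)) ^ 2 + q j)))),
      1 / 2 * (∑ i, ∑ j, RowI.wt (p i) (q j) * (Uᵀ * Z α * B * W) i j ^ 2) ≤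
      16 * ∑ l ∈ range (2 * K + 1), (c * (2 ^ l / 2 ^ K)) ^ 3 *
        Jn ((c * (2 ^ l / 2 ^ K)) ^ 2) A B := by
    intro p q A B U W hU hU' hp hA hW hW' hq hB E
    have hJ : ∀ l : ℕ, Jn ((c * ((2 : ℝ) ^ l / 2 ^ K)) ^ 2) A B = ∑ i, ∑ j,
        p i / (((c * ((2 : ℝ) ^ l / 2 ^ K)) ^ 2 + p i) * ((c * ((2 : ℝ) ^ l / 2 ^ K)) ^ 2 + q j)) *
          ((Uᵀ * Z α * B * W) i j) ^ 2 := fun l =>
      Jn_eq A B U W p q hU hU' hp hA hW hW' hq hB (by positivity)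
    simp only [hJ]
    have step : ∑ i, ∑ j, RowI.wt (p i) (q j) * (Uᵀ * Z α * B * W) i j ^ 2 ≤
        ∑ i, ∑ j, (32 * ∑ l ∈ range (2 * K + 1),
      (c * ((2 : ℝ) ^ l / 2 ^ K)) ^ 3 * (p i / (((c * ((2 : ℝ) ^ l / 2 ^ K)) ^ 2 + p i) *
        ((c * ((2 : ℝ) ^ l / 2 ^ K)) ^ 2 + q j)))) * (Uᵀ * Z α * B * W) i j ^ 2 := by
      refine Finset.sum_le_sum fun i _ => Finset.sum_le_sum fun j _ => ?_
      exact mul_le_mul_of_nonneg_right (E i j) (sq_nonneg _)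
    have swap : ∑ i, ∑ j, (32 * ∑ l ∈ range (2 * K + 1),
      (c * ((2 : ℝ) ^ l / 2 ^ K)) ^ 3 * (p i / (((c * ((2 : ℝ) ^ l / 2 ^ K)) ^ 2 + p i) *
        ((c * ((2 : ℝ) ^ l / 2 ^ K)) ^ 2 + q j)))) * (Uᵀ * Z α * B * W) i j ^ 2 =
        32 * ∑ l ∈ range (2 * K + 1), (c * (2 ^ l / 2 ^ K)) ^ 3 * ∑ i, ∑ j,
        p i / (((c * ((2 : ℝ) ^ l / 2 ^ K)) ^ 2 + p i) * ((c * ((2 : ℝ) ^ l / 2 ^ K)) ^ 2 + q j)) *
          ((Uᵀ * Z α * B * W) i j) ^ 2 := by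
      simp only [Finset.mul_sum, Finset.sum_mul]
      rw [Finset.sum_comm (s := range (2 * K + 1))]
      refine Finset.sum_congr rfl fun i _ => ?_
      rw [Finset.sum_comm (s := range (2 * K + 1))]
      refine Finset.sum_congr rfl fun j _ => ?_
      refine Finset.sum_congr rfl fun l _ => ?_
      ring
    linarith
  have g1 := gen p q F0 F1 U0 U1 h0 h0' hp hA0 h1 h1' hq hA1 E1
  have g2 := gen q r F1 F2 U1 U2 h1 h1' hq hA1 h2 h2' hr hA2 E2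
  have g3 := gen r p F2 F0 U2 U0 h2 h2' hr hA2 h0 h0' hp hA0 E3
  have fin : 16 * ∑ i ∈ range (2 * K + 1), (c * (2 ^ i / 2 ^ K)) ^ 3 *
        (Jn ((c * (2 ^ i / 2 ^ K)) ^ 2) F0 F1 + Jn ((c * (2 ^ i / 2 ^ K)) ^ 2) F1 F2 +
          Jn ((c * (2 ^ i / 2 ^ K)) ^ 2) F2 F0) =
      16 * (∑ l ∈ range (2 * K + 1), (c * (2 ^ l / 2 ^ K)) ^ 3 *
        Jn ((c * (2 ^ l / 2 ^ K)) ^ 2) F0 F1) +
      16 * (∑ l ∈ range (2 * K + 1), (c * (2 ^ l / 2 ^ K)) ^ 3 *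
        Jn ((c * (2 ^ l / 2 ^ K)) ^ 2) F1 F2) +
      16 * (∑ l ∈ range (2 * K + 1), (c * (2 ^ l / 2 ^ K)) ^ 3 *
        Jn ((c * (2 ^ l / 2 ^ K)) ^ 2) F2 F0) := by
    rw [← mul_add, ← mul_add, ← Finset.sum_add_distrib, ← Finset.sum_add_distrib]
    congr 1
    refine Finset.sum_congr rfl fun l _ => ?_
    ring
  rw [fin]
  linarith


end general

end Vale.Agent.H24.TH
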