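import Vale.Agent.H24.TH.Defs

namespace Vale.Agent.H24.TH

open Matrix Finset Filter

/-- Row J (i): scalar sum at the points. -/
theorem scalar_sum (K : ℕ) {x : ℝ} (hx : 0 ≤ x) :
    ∑ i ∈ range (2 * K + 1), ((2 : ℝ) ^ i / 2 ^ K) *
      (x - (2 ^ i / 2 ^ K) ^ 2 * Real.log (1 + x / (2 ^ i / 2 ^ K) ^ 2)) ≤ 5 * (x * Real.sqrt x) := by
  rcases eq_or_lt_of_le hx with h0 | hpos
  · rw [← h0]
    simp
  set s : ℝ := Real.sqrt x with hs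
  have hspos : 0 < s := Real.sqrt_pos.2 hpos
  have hsx : x = s ^ 2 := (Real.sq_sqrt hx).symm
  have hterm : ∀ r : ℝ, 0 < r → r * (x - r ^ 2 * Real.log (1 + x / r ^ 2)) ≤
      5 * (x * s) * (r / (s + r) - (r / 2) / (s + r / 2)) := by
    intro r hr
    have h1 : 2 * x / (x + 2 * r ^ 2) ≤ Real.log (1 + x / r ^ 2) := by
      have h2 := Real.le_log_one_add_of_nonneg (x := x / r ^ 2) (by positivity)
      refine le_trans (le_of_eq ?_) h2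
      field_simp
    have h2 : r * (x - r ^ 2 * Real.log (1 + x / r ^ 2)) ≤
        r * (x - r ^ 2 * (2 * x / (x + 2 * r ^ 2))) := by
      gcongr
    have h3 : r * (x - r ^ 2 * (2 * x / (x + 2 * r ^ 2))) = r * x ^ 2 / (x + 2 * r ^ 2) := by
      field_simp
      ring
    have h4 : r / (s + r) - (r / 2) / (s + r / 2) = r * s / ((s + r) * (2 * s + r)) := by
      field_simp
      ring
    rw [h3] at h2
    refine h2.trans ?_
    rw [h4, hsx, ← mul_div_assoc, div_le_div_iff₀ (by positivity) (by positivity)]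
    have h5 : (s + r) * (2 * s + r) ≤ 5 * (s ^ 2 + 2 * r ^ 2) := by
      nlinarith [sq_nonneg (s - r), sq_nonneg s, sq_nonneg r]
    have h6 : 0 ≤ r * (s ^ 2) ^ 2 := by positivity
    have h7 := mul_le_mul_of_nonneg_left h5 h6
    refine h7.trans (le_of_eq ?_)
    ring
  have hsum : ∑ i ∈ range (2 * K + 1), ((2 : ℝ) ^ i / 2 ^ K) *
      (x - (2 ^ i / 2 ^ K) ^ 2 * Real.log (1 + x / (2 ^ i / 2 ^ K) ^ 2)) ≤
      ∑ i ∈ range (2 * K + 1), 5 * (x * s) *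
        ((2 ^ (i + 1) / 2 ^ (K + 1)) / (s + 2 ^ (i + 1) / 2 ^ (K + 1)) -
          (2 ^ i / 2 ^ (K + 1)) / (s + 2 ^ i / 2 ^ (K + 1))) := by
    refine Finset.sum_le_sum fun i _ => ?_
    have h := hterm ((2 : ℝ) ^ i / 2 ^ K) (by positivity)
    refine h.trans (le_of_eq ?_)
    have e1 : (2 : ℝ) ^ (i + 1) / 2 ^ (K + 1) = 2 ^ i / 2 ^ K := by
      rw [pow_succ, pow_succ]
      field_simp
    have e2 : (2 : ℝ) ^ i / 2 ^ (K + 1) = 2 ^ i / 2 ^ K / 2 := by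
      rw [pow_succ]
      field_simp
    rw [e1, e2]
  refine hsum.trans ?_
  rw [← Finset.mul_sum,
    Finset.sum_range_sub (fun i => ((2 : ℝ) ^ i / 2 ^ (K + 1)) / (s + 2 ^ i / 2 ^ (K + 1)))]
  have h8 : ((2 : ℝ) ^ (2 * K + 1) / 2 ^ (K + 1)) / (s + 2 ^ (2 * K + 1) / 2 ^ (K + 1)) ≤ 1 := by
    rw [div_le_one (by positivity)]
    linarith
  have h9 : 0 ≤ ((2 : ℝ) ^ 0 / 2 ^ (K + 1)) / (s + 2 ^ 0 / 2 ^ (K + 1)) := by positivity
  have h10 : 0 ≤ 5 * (x * s) := by positivity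
  calc 5 * (x * s) * (((2 : ℝ) ^ (2 * K + 1) / 2 ^ (K + 1)) / (s + 2 ^ (2 * K + 1) / 2 ^ (K + 1)) -
        ((2 : ℝ) ^ 0 / 2 ^ (K + 1)) / (s + 2 ^ 0 / 2 ^ (K + 1)))
      ≤ 5 * (x * s) * 1 := by
        refine mul_le_mul_of_nonneg_left ?_ h10
        linarith
    _ = 5 * (x * s) := mul_one _

theorem cube_bound (a b : ℝ) :
    (a ^ 2 + b ^ 2) * Real.sqrt (a ^ 2 + b ^ 2) ≤ 2 * (|a| ^ 3 + |b| ^ 3) := by
  have h1 : Real.sqrt (a ^ 2 + b ^ 2) ≤ |a| + |b| := by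
    rw [Real.sqrt_le_left (by positivity)]
    have := mul_nonneg (abs_nonneg a) (abs_nonneg b)
    nlinarith [sq_abs a, sq_abs b]
  have h2 : (a ^ 2 + b ^ 2) * Real.sqrt (a ^ 2 + b ^ 2) ≤ (a ^ 2 + b ^ 2) * (|a| + |b|) :=
    mul_le_mul_of_nonneg_left h1 (by positivity)
  refine h2.trans ?_
  rw [← sq_abs a, ← sq_abs b]
  have ha := abs_nonneg a
  have hb := abs_nonneg b
  nlinarith [mul_nonneg (add_nonneg ha hb) (sq_nonneg (|a| - |b|))]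

theorem E_unit {σ : ℝ} (X : Matrix Unit Unit ℝ) :
    E σ X = X () () - σ * Real.log (1 + X () () / σ) := by
  unfold E
  rw [Matrix.trace, Matrix.det_unique]
  simp only [Matrix.diag, Finset.univ_unique, Finset.sum_singleton, Matrix.add_apply,
    Matrix.one_apply_eq, Matrix.smul_apply, smul_eq_mul]
  rw [div_eq_inv_mul]

/-- Row J (ii): leaf energy. -/
theorem leaf_bound (K : ℕ) (F0 F1 F2 : Matrix (Idx 0) (Idx 0) ℝ) :
    EnK K 0 F0 F1 F2 ≤ 60 * ∑ x, ∑ y, (|F0 x y| ^ 3 + |F1 x y| ^ 3 + |F2 x y| ^ 3) := by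
  have hR : ∑ x : Idx 0, ∑ y : Idx 0, (|F0 x y| ^ 3 + |F1 x y| ^ 3 + |F2 x y| ^ 3) =
      |F0 () ()| ^ 3 + |F1 () ()| ^ 3 + |F2 () ()| ^ 3 := by
    change ∑ x : Unit, ∑ y : Unit, (|F0 x y| ^ 3 + |F1 x y| ^ 3 + |F2 x y| ^ 3) = _
    simp
  rw [hR]
  set a := F0 () () with ha
  set b := F1 () () with hb
  set c := F2 () () with hc
  have hE : ∀ σ : ℝ, En σ F0 F1 F2 =
      ((a ^ 2 + b ^ 2) - σ * Real.log (1 + (a ^ 2 + b ^ 2) / σ)) +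
      ((b ^ 2 + c ^ 2) - σ * Real.log (1 + (b ^ 2 + c ^ 2) / σ)) +
      ((c ^ 2 + a ^ 2) - σ * Real.log (1 + (c ^ 2 + a ^ 2) / σ)) := by
    intro σ
    unfold En
    have e : ∀ (A B : Matrix (Idx 0) (Idx 0) ℝ), E σ (Aᵀ * A + B * Bᵀ) =
        ((A () ()) ^ 2 + (B () ()) ^ 2) - σ * Real.log (1 + ((A () ()) ^ 2 + (B () ()) ^ 2) / σ) := by
      intro A B
      have h1 : (Aᵀ * A + B * Bᵀ : Matrix (Idx 0) (Idx 0) ℝ) () () = (A () ()) ^ 2 + (B () ()) ^ 2 := by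
        change (∑ k : Unit, A k () * A k ()) + (∑ k : Unit, B () k * B () k) = _
        simp only [Finset.univ_unique, Finset.sum_singleton, sq]
      have h2 := E_unit (σ := σ) (Aᵀ * A + B * Bᵀ : Matrix Unit Unit ℝ)
      rw [← h1]
      exact h2
    rw [e, e, e]
  unfold EnK
  have hterm : ∀ i : ℕ, ((2 : ℝ) ^ i / 2 ^ K) * En (((2 : ℝ) ^ 0 * (2 ^ i / 2 ^ K)) ^ 2) F0 F1 F2 =
      ((2 : ℝ) ^ i / 2 ^ K) * ((a ^ 2 + b ^ 2) - (2 ^ i / 2 ^ K) ^ 2 *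
        Real.log (1 + (a ^ 2 + b ^ 2) / (2 ^ i / 2 ^ K) ^ 2)) +
      ((2 : ℝ) ^ i / 2 ^ K) * ((b ^ 2 + c ^ 2) - (2 ^ i / 2 ^ K) ^ 2 *
        Real.log (1 + (b ^ 2 + c ^ 2) / (2 ^ i / 2 ^ K) ^ 2)) +
      ((2 : ℝ) ^ i / 2 ^ K) * ((c ^ 2 + a ^ 2) - (2 ^ i / 2 ^ K) ^ 2 *
        Real.log (1 + (c ^ 2 + a ^ 2) / (2 ^ i / 2 ^ K) ^ 2)) := by
    intro i
    rw [pow_zero, one_mul, hE]
    ring
  simp only [hterm]
  rw [Finset.sum_add_distrib, Finset.sum_add_distrib]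
  have s1 := scalar_sum K (x := a ^ 2 + b ^ 2) (by positivity)
  have s2 := scalar_sum K (x := b ^ 2 + c ^ 2) (by positivity)
  have s3 := scalar_sum K (x := c ^ 2 + a ^ 2) (by positivity)
  have t1 := cube_bound a b
  have t2 := cube_bound b c
  have t3 := cube_bound c a
  have pa : 0 ≤ |a| ^ 3 := by positivity
  have pb : 0 ≤ |b| ^ 3 := by positivity
  have pc : 0 ≤ |c| ^ 3 := by positivity
  linarith

end Vale.Agent.H24.TH
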