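import Vale.Agent.H24.TH.A
import Vale.Agent.H24.TH.D2
import Vale.Agent.H24.TH.I
import Vale.Agent.H24.TH.J

namespace Vale.Agent.H24.TH

open Matrix Finset Filter

section K

theorem En_nonneg {n : Type*} [Fintype n] [DecidableEq n] (F0 F1 F2 : Matrix n n ℝ) {σ : ℝ}
    (hσ : 0 < σ) : 0 ≤ En σ F0 F1 F2 := by
  have h : ∀ A B : Matrix n n ℝ, (Aᵀ * A + B * Bᵀ).PosSemidef := by
    intro A B
    have h1 : (Aᵀ * A).PosSemidef := by
      simpa [Matrix.conjTranspose_eq_transpose_of_trivial] using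
        Matrix.posSemidef_conjTranspose_mul_self A
    have h2 : (B * Bᵀ).PosSemidef := by
      simpa [Matrix.conjTranspose_eq_transpose_of_trivial] using
        Matrix.posSemidef_self_mul_conjTranspose B
    exact h1.add h2
  unfold En
  have h1 := E_nonneg (h F0 F1) hσ
  have h2 := E_nonneg (h F1 F2) hσ
  have h3 := E_nonneg (h F2 F0) hσ
  linarith

theorem EnK_nonneg (K j : ℕ) (F0 F1 F2 : Matrix (Idx j) (Idx j) ℝ) : 0 ≤ EnK K j F0 F1 F2 := by
  unfold EnK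
  refine Finset.sum_nonneg fun i _ => ?_
  refine mul_nonneg (by positivity) (En_nonneg _ _ _ (by positivity))

/-- the sum of cubes -/
noncomputable def cubeSum {n : Type*} [Fintype n] (F0 F1 F2 : Matrix n n ℝ) : ℝ :=
  ∑ x, ∑ y, (|F0 x y| ^ 3 + |F1 x y| ^ 3 + |F2 x y| ^ 3)

theorem cubeSum_children {α : Type*} [Fintype α] (F0 F1 F2 : Matrix (Bool × α) (Bool × α) ℝ) :
    ∑ a : Bool, ∑ b : Bool,
      cubeSum (child F0 a b) (child F1 b (xor a b)) (child F2 (xor a b) a) =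
    cubeSum F0 F1 F2 := by
  unfold cubeSum child
  simp only [Fintype.sum_prod_type, Fintype.sum_bool, Bool.xor_true, Bool.xor_false,
    Bool.not_true, Bool.not_false, Bool.true_xor, Bool.false_xor, ← Finset.sum_add_distrib]
  refine Finset.sum_congr rfl fun x _ => Finset.sum_congr rfl fun y _ => ?_
  ring

theorem EnK_step (K j : ℕ) (F0 F1 F2 : Matrix (Bool × Idx j) (Bool × Idx j) ℝ) :
    (∑ i ∈ range (2 * K + 1), ((2 : ℝ) ^ i / 2 ^ K) *
      En (((2 : ℝ) ^ (j + 1) * (2 ^ i / 2 ^ K)) ^ 2) F0 F1 F2) +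
      1 / 2 * (((2 : ℝ) ^ (j + 1))⁻¹ *
        ∑ i ∈ range (2 * K + 1), ((2 : ℝ) ^ (j + 1) * (2 ^ i / 2 ^ K)) ^ 3 *
        (Jn (((2 : ℝ) ^ (j + 1) * (2 ^ i / 2 ^ K)) ^ 2) F0 F1 +
          Jn (((2 : ℝ) ^ (j + 1) * (2 ^ i / 2 ^ K)) ^ 2) F1 F2 +
          Jn (((2 : ℝ) ^ (j + 1) * (2 ^ i / 2 ^ K)) ^ 2) F2 F0)) ≤
      ∑ a : Bool, ∑ b : Bool,
        EnK K j (child F0 a b) (child F1 b (xor a b)) (child F2 (xor a b) a) := by
  unfold EnK
  have e : ∑ a : Bool, ∑ b : Bool, (∑ i ∈ range (2 * K + 1), ((2 : ℝ) ^ i / 2 ^ K) *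
      En (((2 : ℝ) ^ j * (2 ^ i / 2 ^ K)) ^ 2) (child F0 a b) (child F1 b (xor a b))
        (child F2 (xor a b) a)) =
      ∑ i ∈ range (2 * K + 1), ((2 : ℝ) ^ i / 2 ^ K) * ∑ a : Bool, ∑ b : Bool,
        En (((2 : ℝ) ^ j * (2 ^ i / 2 ^ K)) ^ 2) (child F0 a b) (child F1 b (xor a b))
        (child F2 (xor a b) a) := by
    simp only [Fintype.sum_bool, ← Finset.sum_add_distrib]
    refine Finset.sum_congr rfl fun i _ => ?_
    ring
  rw [e, Finset.mul_sum, Finset.mul_sum, ← Finset.sum_add_distrib]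
  refine Finset.sum_le_sum fun i _ => ?_
  have hr : (0 : ℝ) < 2 ^ i / 2 ^ K := by positivity
  generalize (2 : ℝ) ^ i / 2 ^ K = r at hr ⊢
  have hσ : 0 < ((2 : ℝ) ^ (j + 1) * r) ^ 2 := by positivity
  have h := one_step F0 F1 F2 hσ
  have e2 : ((2 : ℝ) ^ (j + 1) * r) ^ 2 / 4 = ((2 : ℝ) ^ j * r) ^ 2 := by
    rw [pow_succ]; ring
  rw [e2] at h
  refine le_trans (le_of_eq ?_) (mul_le_mul_of_nonneg_left h hr.le)
  have h2 : (2 : ℝ) ^ (j + 1) ≠ 0 := by positivity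
  field_simp

theorem discrete_aux (j : ℕ) : ∀ (F0 F1 F2 : Matrix (Idx j) (Idx j) ℝ),
    ∀ᶠ K : ℕ in atTop, V j F0 F1 F2 + 32 * EnK K j F0 F1 F2 ≤ 1920 * cubeSum F0 F1 F2 := by
  induction j with
  | zero =>
    intro F0 F1 F2
    refine Eventually.of_forall fun K => ?_
    have h := leaf_bound K F0 F1 F2
    have hV : V 0 F0 F1 F2 = 0 := rfl
    rw [hV]
    unfold cubeSum
    linarith
  | succ j ih =>
    intro F0 F1 F2
    have hT := T3_bound (α := Idx j) F0 F1 F2 (c := (2 : ℝ) ^ (j + 1)) (by positivity)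
    have h := fun a b : Bool => ih (child (α := Idx j) F0 a b)
      (child (α := Idx j) F1 b (xor a b)) (child (α := Idx j) F2 (xor a b) a)
    filter_upwards [hT, h false false, h false true, h true false, h true true] with
      K hK h00 h01 h10 h11
    have hs := EnK_step K j F0 F1 F2
    have hc := cubeSum_children (α := Idx j) F0 F1 F2
    have hV : V (j + 1) F0 F1 F2 = ((2 : ℝ) ^ (j + 1))⁻¹ * |T3 (α := Idx j) F0 F1 F2| +
        ∑ a : Bool, ∑ b : Bool,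
          V j (child (α := Idx j) F0 a b) (child (α := Idx j) F1 b (xor a b))
            (child (α := Idx j) F2 (xor a b) a) := rfl
    have hE : EnK K (j + 1) F0 F1 F2 = (∑ i ∈ range (2 * K + 1), ((2 : ℝ) ^ i / 2 ^ K) *
      En (α := Bool × Idx j) (((2 : ℝ) ^ (j + 1) * (2 ^ i / 2 ^ K)) ^ 2) F0 F1 F2) := rfl
    have hC : cubeSum F0 F1 F2 = cubeSum (n := Bool × Idx j) F0 F1 F2 := rfl
    rw [hV, hE, hC, ← hc]
    simp only [Fintype.sum_bool] at hs ⊢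
    have h2 : (0 : ℝ) < ((2 : ℝ) ^ (j + 1))⁻¹ := by positivity
    have hK' := mul_le_mul_of_nonneg_left hK h2.le
    rw [← mul_assoc, mul_comm (((2 : ℝ) ^ (j + 1))⁻¹) 16, mul_assoc] at hK'
    linarith

/-- Row K: the discrete theorem. -/
theorem discrete (j : ℕ) (F0 F1 F2 : Matrix (Idx j) (Idx j) ℝ) :
    V j F0 F1 F2 ≤ 2000 * ∑ x, ∑ y, (|F0 x y| ^ 3 + |F1 x y| ^ 3 + |F2 x y| ^ 3) := by
  obtain ⟨K, hK⟩ := (discrete_aux j F0 F1 F2).exists
  have h1 := EnK_nonneg K j F0 F1 F2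
  have h2 : 0 ≤ cubeSum F0 F1 F2 := by
    unfold cubeSum
    positivity
  have h3 : cubeSum F0 F1 F2 = ∑ x, ∑ y, (|F0 x y| ^ 3 + |F1 x y| ^ 3 + |F2 x y| ^ 3) := rfl
  rw [← h3]
  linarith

end K

end Vale.Agent.H24.TH
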