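import Vale.Agent.H24.TH.Defs

/-!
Combinatorial part of the reduction: dyadic unrolling of `V`.
-/

namespace Vale.Agent.H24.TH

open Matrix Finset

/-- numerical value of an index -/
def val : (j : ℕ) → Idx j → ℕ
  | 0, _ => 0
  | (j + 1), x => (if x.1 then 2 ^ j else 0) + val j x.2

theorem sum_val (j : ℕ) (f : ℕ → ℝ) : ∑ r : Idx j, f (val j r) = ∑ m ∈ range (2 ^ j), f m := by
  induction j generalizing f with
  | zero =>
    show ∑ r : Unit, f 0 = _
    simp
  | succ j ih =>
    show ∑ r : Bool × Idx j, f ((if r.1 then 2 ^ j else 0) + val j r.2) = _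
    rw [Fintype.sum_prod_type, Fintype.sum_bool, pow_succ, mul_two, Finset.sum_range_add]
    simp only [if_true, Bool.false_eq_true, if_false, zero_add]
    rw [ih (fun m => f (2 ^ j + m)), ih f]
    ring

theorem val_lt (j : ℕ) (r : Idx j) : val j r < 2 ^ j := by
  induction j with
  | zero => simp [val]
  | succ j ih =>
    have := ih r.2
    simp only [val]
    split_ifs <;> (rw [pow_succ]; omega)

/-- the block of an array -/
def blk (A : ℕ → ℕ → ℝ) (j n n' : ℕ) : Matrix (Idx j) (Idx j) ℝ :=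
  fun r r' => A (2 ^ j * n + val j r) (2 ^ j * n' + val j r')

theorem child_blk (A : ℕ → ℕ → ℝ) (j n n' : ℕ) (a b : Bool) :
    child (α := Idx j) (blk A (j + 1) n n') a b = blk A j (2 * n + a.toNat) (2 * n' + b.toNat) := by
  funext r r'
  simp only [child, blk, val]
  congr 1
  · cases a <;> simp [pow_succ] <;> ring
  · cases b <;> simp [pow_succ] <;> ring

theorem xor_bit (n m : ℕ) (a b : Bool) :
    (2 * n + a.toNat) ^^^ (2 * m + b.toNat) = 2 * (n ^^^ m) + (xor a b).toNat := by
  have h : ∀ (k : ℕ) (c : Bool), 2 * k + c.toNat = Nat.bit c k := by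
    intro k c; cases c <;> simp [Nat.bit]
  rw [h, h, h, Nat.xor_bit]

/-- one term of the dyadic sum -/
noncomputable def Dt (A B C : ℕ → ℕ → ℝ) (l n0 n1 : ℕ) : ℝ :=
  ((2 : ℝ) ^ (l + 1))⁻¹ * |T3 (α := Idx l) (blk A (l + 1) n0 n1) (blk B (l + 1) n1 (n0 ^^^ n1))
    (blk C (l + 1) (n0 ^^^ n1) n0)|

theorem V_blk (A B C : ℕ → ℕ → ℝ) (j n0 n1 : ℕ) :
    V j (blk A j n0 n1) (blk B j n1 (n0 ^^^ n1)) (blk C j (n0 ^^^ n1) n0) =
      ∑ l ∈ range j, ∑ m0 ∈ range (2 ^ (j - 1 - l)), ∑ m1 ∈ range (2 ^ (j - 1 - l)),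
        Dt A B C l (2 ^ (j - 1 - l) * n0 + m0) (2 ^ (j - 1 - l) * n1 + m1) := by
  induction j generalizing n0 n1 with
  | zero => simp [V]
  | succ j ih =>
    rw [V, Finset.sum_range_succ]
    have e1 : ∀ a b : Bool,
        V j (child (α := Idx j) (blk A (j + 1) n0 n1) a b)
          (child (α := Idx j) (blk B (j + 1) n1 (n0 ^^^ n1)) b (xor a b))
          (child (α := Idx j) (blk C (j + 1) (n0 ^^^ n1) n0) (xor a b) a) =
        ∑ l ∈ range j, ∑ m0 ∈ range (2 ^ (j - 1 - l)), ∑ m1 ∈ range (2 ^ (j - 1 - l)),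
          Dt A B C l (2 ^ (j - 1 - l) * (2 * n0 + a.toNat) + m0)
            (2 ^ (j - 1 - l) * (2 * n1 + b.toNat) + m1) := by
      intro a b
      rw [child_blk, child_blk, child_blk, ← xor_bit, ih]
    simp only [e1]
    rw [add_comm]
    congr 1
    · simp only [Fintype.sum_bool, ← Finset.sum_add_distrib]
      apply Finset.sum_congr rfl
      intro l hl
      have hl' := Finset.mem_range.mp hl
      have hj : j + 1 - 1 - l = (j - 1 - l) + 1 := by omega
      rw [hj, pow_succ, mul_two, Finset.sum_range_add]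
      set q := 2 ^ (j - 1 - l) with hq
      simp only [Finset.sum_range_add, Finset.sum_add_distrib, Bool.toNat_true, Bool.toNat_false,
        add_zero]
      have h1 : ∀ n m, q * (2 * n + 1) + m = (q + q) * n + (q + m) := by intro n m; ring
      have h2 : ∀ n m, q * (2 * n) + m = (q + q) * n + m := by intro n m; ring
      simp only [h1, h2]
      ring
    · simp [Dt]

end Vale.Agent.H24.TH
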