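import Vale.Agent.H24.TH.Stmt
import Vale.Agent.H24.TH.L1

/-!
Haar functions at natural scales as sums over unit intervals.
-/

namespace Vale.Agent.H24.TH

open Finset MeasureTheory

/-- indicator of the unit interval -/
noncomputable def u (y : ℝ) : ℝ := Set.indicator (Set.Ico (0 : ℝ) 1) (fun _ => (1 : ℝ)) y

theorem u_def (y : ℝ) : u y = if 0 ≤ y ∧ y < 1 then 1 else 0 := by
  unfold u Set.indicator
  simp [Set.mem_Ico]

theorem sum_u (a y : ℝ) (M : ℕ) :
    ∑ m ∈ range M, u (y - (a + m)) = if a ≤ y ∧ y < a + M then 1 else 0 := by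
  induction M with
  | zero =>
    simp only [range_zero, sum_empty, Nat.cast_zero, add_zero]
    rw [if_neg]; rintro ⟨h1, h2⟩; linarith
  | succ M ih =>
    rw [Finset.sum_range_succ, ih, u_def]
    push_cast
    have hM : (0 : ℝ) ≤ M := Nat.cast_nonneg M
    by_cases h1 : a ≤ y
    · by_cases h2 : y < a + M
      · rw [if_pos ⟨h1, h2⟩, if_neg, if_pos ⟨h1, by linarith⟩]
        · ring
        · rintro ⟨h3, h4⟩; linarith
      · by_cases h3 : y < a + (M + 1)
        · rw [if_neg (fun h => h2 h.2), if_pos ⟨by linarith, by linarith⟩, if_pos ⟨h1, h3⟩]; ring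
        · rw [if_neg (fun h => h2 h.2), if_neg (fun h => h3 (by linarith [h.2])),
            if_neg (fun h => h3 h.2)]; ring
    · rw [if_neg (fun h => h1 h.1), if_neg (fun h => h1 (by linarith [h.1])),
        if_neg (fun h => h1 h.1)]; ring

theorem haar_eq (l n : ℕ) (y : ℝ) :
    haar ((l + 1 : ℕ) : ℤ) n y =
      ∑ r : Idx (l + 1), sg r.1 * u (y - ((2 ^ (l + 1) * n + val (l + 1) r : ℕ) : ℝ)) := by
  have e : (∑ r : Idx (l + 1), sg r.1 * u (y - ((2 ^ (l + 1) * n + val (l + 1) r : ℕ) : ℝ))) =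
      ∑ r : Bool × Idx l, sg r.1 *
        u (y - ((2 ^ (l + 1) * n + ((if r.1 then 2 ^ l else 0) + val l r.2) : ℕ) : ℝ)) := rfl
  rw [e, Fintype.sum_prod_type, Fintype.sum_bool]
  simp only [sg, if_true, Bool.false_eq_true, if_false, zero_add, one_mul, neg_mul,
    Finset.sum_neg_distrib]
  have e1 := sum_val l (fun m => u (y - ((2 ^ (l + 1) * n + m : ℕ) : ℝ)))
  have e2 := sum_val l (fun m => u (y - ((2 ^ (l + 1) * n + (2 ^ l + m) : ℕ) : ℝ)))
  rw [e1, e2]
  have f1 : ∀ m : ℕ, ((2 ^ (l + 1) * n + m : ℕ) : ℝ) = (2 ^ (l + 1) * n : ℝ) + m := by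
    intro m; push_cast; ring
  have f2 : ∀ m : ℕ, ((2 ^ (l + 1) * n + (2 ^ l + m) : ℕ) : ℝ) =
      ((2 ^ (l + 1) * n : ℝ) + 2 ^ l) + m := by
    intro m; push_cast; ring
  rw [Finset.sum_congr rfl (fun m _ => by rw [f2]), Finset.sum_congr (s₁ := range (2 ^ l))
    (f := fun m => u (y - ((2 ^ (l + 1) * n + m : ℕ) : ℝ))) rfl (fun m _ => by rw [f1]),
    sum_u, sum_u]
  unfold haar Set.indicator
  simp only [Set.mem_Ico, zpow_natCast]
  have g1 : (2 : ℝ) ^ (l + 1) * (n + 1 / 2) = 2 ^ (l + 1) * n + 2 ^ l := by rw [pow_succ]; ring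
  have g2 : (2 : ℝ) ^ (l + 1) * (n + 1) = 2 ^ (l + 1) * n + 2 ^ l + 2 ^ l := by
    rw [pow_succ]; ring
  rw [g1, g2]
  push_cast
  ring

theorem haar_zero_of_notMem {k : ℤ} {n : ℕ} {x : ℝ} (hx : x ∉ dyad k n) : haar k n x = 0 := by
  have h2 : (0 : ℝ) < 2 ^ k := by positivity
  unfold haar Set.indicator
  simp only [dyad, Set.mem_Ico, not_and, not_lt] at hx
  have h3 : (2 : ℝ) ^ k * (n + 1 / 2) = 2 ^ k * n + 2 ^ k / 2 := by ring
  have h4 : (2 : ℝ) ^ k * (n + 1) = 2 ^ k * n + 2 ^ k := by ring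
  rw [h4] at hx
  simp only [Set.mem_Ico]
  rw [h3, h4]
  rw [if_neg, if_neg]
  · ring
  · rintro ⟨h5, h6⟩; have := hx (by linarith); linarith
  · rintro ⟨h5, h6⟩; have := hx (by linarith); linarith

end Vale.Agent.H24.TH
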