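import Vale.Agent.H24.TH.L2

/-!
Integral formula for `LI` at natural scales.
-/

namespace Vale.Agent.H24.TH

open Finset MeasureTheory

/-- bounded measurable -/
def BM {X : Type*} [MeasurableSpace X] (f : X → ℝ) : Prop := Measurable f ∧ ∃ M, ∀ x, |f x| ≤ M

namespace BM
variable {X Y : Type*} [MeasurableSpace X] [MeasurableSpace Y]

theorem const (c : ℝ) : BM (fun _ : X => c) := ⟨measurable_const, |c|, fun _ => le_rfl⟩

theorem add {f g : X → ℝ} (hf : BM f) (hg : BM g) : BM (fun x => f x + g x) := by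
  obtain ⟨hf, M, hM⟩ := hf
  obtain ⟨hg, N, hN⟩ := hg
  exact ⟨hf.add hg, M + N, fun x => (abs_add_le _ _).trans (add_le_add (hM x) (hN x))⟩

theorem mul {f g : X → ℝ} (hf : BM f) (hg : BM g) : BM (fun x => f x * g x) := by
  obtain ⟨hf, M, hM⟩ := hf
  obtain ⟨hg, N, hN⟩ := hg
  refine ⟨hf.mul hg, M * N, fun x => ?_⟩
  rw [abs_mul]
  exact mul_le_mul (hM x) (hN x) (abs_nonneg _) ((abs_nonneg _).trans (hM x))

theorem abs {f : X → ℝ} (hf : BM f) : BM (fun x => |f x|) := by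
  obtain ⟨hf, M, hM⟩ := hf
  exact ⟨hf.abs, M, fun x => by rw [abs_abs]; exact hM x⟩

theorem pow {f : X → ℝ} (hf : BM f) (n : ℕ) : BM (fun x => f x ^ n) := by
  induction n with
  | zero => simpa using BM.const (X := X) 1
  | succ n ih => simpa [pow_succ] using ih.mul hf

theorem sum {ι : Type*} (s : Finset ι) {f : ι → X → ℝ} (hf : ∀ i, BM (f i)) :
    BM (fun x => ∑ i ∈ s, f i x) := by
  classical
  induction s using Finset.induction_on with
  | empty => simpa using BM.const (X := X) 0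
  | insert a s ha ih => simpa [Finset.sum_insert ha] using (hf a).add ih

theorem comp {f : Y → ℝ} (hf : BM f) {g : X → Y} (hg : Measurable g) : BM (fun x => f (g x)) := by
  obtain ⟨hf, M, hM⟩ := hf
  exact ⟨hf.comp hg, M, fun x => hM _⟩

end BM

theorem u_nonneg (y : ℝ) : 0 ≤ u y := by
  rw [u_def]; split_ifs <;> norm_num

theorem u_integrable (a : ℝ) : Integrable (fun y => u (y - a)) := by
  have h : Integrable u := by
    unfold u
    rw [integrable_indicator_iff measurableSet_Ico]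
    simp
  exact h.comp_sub_right a

theorem u_integrable' : Integrable u := by simpa using u_integrable 0

theorem integral_u : ∫ y, u y = 1 := by
  unfold u
  rw [integral_indicator measurableSet_Ico]
  simp

theorem u_measurable : Measurable u := by
  unfold u
  exact measurable_const.indicator measurableSet_Ico

/-- product of three shifted unit-interval indicators -/
noncomputable def w3 (c : ℝ × ℝ × ℝ) (x : ℝ × ℝ × ℝ) : ℝ :=
  u (x.1 - c.1) * (u (x.2.1 - c.2.1) * u (x.2.2 - c.2.2))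

theorem w3_integrable (c : ℝ × ℝ × ℝ) : Integrable (w3 c) := by
  unfold w3
  exact (u_integrable c.1).mul_prod ((u_integrable c.2.1).mul_prod (u_integrable c.2.2))

theorem w3_nonneg (c x) : 0 ≤ w3 c x := by
  unfold w3
  exact mul_nonneg (u_nonneg _) (mul_nonneg (u_nonneg _) (u_nonneg _))

theorem integrable_w3_mul {f : ℝ × ℝ × ℝ → ℝ} (hf : BM f) (c : ℝ × ℝ × ℝ) :
    Integrable (fun x => w3 c x * f x) := by
  obtain ⟨hf, M, hM⟩ := hf
  exact (w3_integrable c).mul_bdd (c := M) hf.aestronglyMeasurable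
    (Filter.Eventually.of_forall (fun x => by simpa using hM x))

theorem prod3 {ι : Type*} [Fintype ι] (f g h : ι → ℝ) :
    (∑ i, f i) * (∑ j, g j) * (∑ k, h k) = ∑ i, ∑ j, ∑ k, f i * g j * h k := by
  rw [Finset.sum_mul_sum, Finset.sum_mul]
  refine Finset.sum_congr rfl fun i _ => ?_
  rw [Finset.sum_mul]
  refine Finset.sum_congr rfl fun j _ => ?_
  rw [Finset.mul_sum]

theorem haar3 : (volume : Measure (ℝ × ℝ × ℝ)).IsAddHaarMeasure :=
  inferInstanceAs ((volume : Measure ℝ).prod (volume : Measure (ℝ × ℝ))).IsAddHaarMeasure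

/-- array of samples -/
def arr (G : ℝ × ℝ → ℝ) (a b : ℝ) : ℕ → ℕ → ℝ := fun i j => G ((i : ℝ) + a, (j : ℝ) + b)

theorem BM_G0 {G : ℝ × ℝ → ℝ} (hG : BM G) : BM (fun x : ℝ × ℝ × ℝ => G (x.1, x.2.1)) :=
  hG.comp (measurable_fst.prodMk (measurable_fst.comp measurable_snd))

theorem BM_G1 {G : ℝ × ℝ → ℝ} (hG : BM G) : BM (fun x : ℝ × ℝ × ℝ => G (x.2.1, x.2.2)) :=
  hG.comp measurable_snd

theorem BM_G2 {G : ℝ × ℝ → ℝ} (hG : BM G) : BM (fun x : ℝ × ℝ × ℝ => G (x.2.2, x.1)) :=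
  hG.comp ((measurable_snd.comp measurable_snd).prodMk measurable_fst)

theorem BM_a0 {G : ℝ × ℝ → ℝ} (hG : BM G) (i j : ℕ) :
    BM (fun t : ℝ × ℝ × ℝ => arr G t.1 t.2.1 i j) := by
  unfold arr
  exact hG.comp ((measurable_fst.const_add _).prodMk
    ((measurable_fst.comp measurable_snd).const_add _))

theorem BM_a1 {G : ℝ × ℝ → ℝ} (hG : BM G) (i j : ℕ) :
    BM (fun t : ℝ × ℝ × ℝ => arr G t.2.1 t.2.2 i j) := by
  unfold arr
  exact hG.comp (((measurable_fst.comp measurable_snd).const_add _).prodMk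
    ((measurable_snd.comp measurable_snd).const_add _))

theorem BM_a2 {G : ℝ × ℝ → ℝ} (hG : BM G) (i j : ℕ) :
    BM (fun t : ℝ × ℝ × ℝ => arr G t.2.2 t.1 i j) := by
  unfold arr
  exact hG.comp (((measurable_snd.comp measurable_snd).const_add _).prodMk
    (measurable_fst.const_add _))

theorem BM_T3 {G0 G1 G2 : ℝ × ℝ → ℝ} (h0 : BM G0) (h1 : BM G1) (h2 : BM G2) (l n0 n1 n2 : ℕ) :
    BM (fun t : ℝ × ℝ × ℝ => T3 (α := Idx l) (blk (arr G0 t.1 t.2.1) (l + 1) n0 n1)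
      (blk (arr G1 t.2.1 t.2.2) (l + 1) n1 n2) (blk (arr G2 t.2.2 t.1) (l + 1) n2 n0)) := by
  unfold T3 blk
  refine BM.sum _ (fun x0 => BM.sum _ (fun x1 => BM.sum _ (fun x2 => ?_)))
  exact (((BM_a0 h0 _ _).mul (BM_a1 h1 _ _)).mul (BM_a2 h2 _ _)).mul (BM.const _)

theorem LI_nat {G0 G1 G2 : ℝ × ℝ → ℝ} (h0 : BM G0) (h1 : BM G1) (h2 : BM G2) (l n0 n1 n2 : ℕ) :
    LI G0 G1 G2 ((l + 1 : ℕ) : ℤ) (n0, n1, n2) = ((2 : ℝ) ^ (l + 1))⁻¹ *
      ∫ t : ℝ × ℝ × ℝ, w3 0 t * T3 (α := Idx l) (blk (arr G0 t.1 t.2.1) (l + 1) n0 n1)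
        (blk (arr G1 t.2.1 t.2.2) (l + 1) n1 n2) (blk (arr G2 t.2.2 t.1) (l + 1) n2 n0) := by
  unfold LI
  rw [zpow_neg, zpow_natCast]
  congr 1
  rw [setIntegral_eq_integral_of_forall_compl_eq_zero]
  swap
  · intro x hx
    simp only [Set.mem_prod, not_and_or] at hx
    rcases hx with hx | hx | hx
    · rw [haar_zero_of_notMem hx]; ring
    · rw [haar_zero_of_notMem hx]; ring
    · rw [haar_zero_of_notMem hx]; ring
  set P : ℝ × ℝ × ℝ → ℝ := fun x => G0 (x.1, x.2.1) * G1 (x.2.1, x.2.2) * G2 (x.2.2, x.1) with hP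
  have hPB : BM P := ((BM_G0 h0).mul (BM_G1 h1)).mul (BM_G2 h2)
  set s : Idx (l + 1) → Idx (l + 1) → Idx (l + 1) → ℝ := fun r0 r1 r2 =>
    sg r0.1 * sg r1.1 * sg r2.1 with hs
  set c : Idx (l + 1) → Idx (l + 1) → Idx (l + 1) → ℝ × ℝ × ℝ := fun r0 r1 r2 =>
    (((2 ^ (l + 1) * n0 + val (l + 1) r0 : ℕ) : ℝ), ((2 ^ (l + 1) * n1 + val (l + 1) r1 : ℕ) : ℝ),
      ((2 ^ (l + 1) * n2 + val (l + 1) r2 : ℕ) : ℝ)) with hc
  have e1 : ∀ x : ℝ × ℝ × ℝ, G0 (x.1, x.2.1) * G1 (x.2.1, x.2.2) * G2 (x.2.2, x.1) *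
      (haar ((l + 1 : ℕ) : ℤ) n0 x.1 * haar ((l + 1 : ℕ) : ℤ) n1 x.2.1 *
        haar ((l + 1 : ℕ) : ℤ) n2 x.2.2) =
      ∑ r0, ∑ r1, ∑ r2, s r0 r1 r2 * (w3 (c r0 r1 r2) x * P x) := by
    intro x
    rw [haar_eq, haar_eq, haar_eq, prod3, Finset.mul_sum]
    refine Finset.sum_congr rfl fun r0 _ => ?_
    rw [Finset.mul_sum]
    refine Finset.sum_congr rfl fun r1 _ => ?_
    rw [Finset.mul_sum]
    refine Finset.sum_congr rfl fun r2 _ => ?_
    simp only [hs, hc, w3, hP]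
    ring
  have e2 : ∀ r0 r1 r2, ∫ x, w3 (c r0 r1 r2) x * P x =
      ∫ t : ℝ × ℝ × ℝ, w3 0 t * (blk (arr G0 t.1 t.2.1) (l + 1) n0 n1 r0 r1 *
        blk (arr G1 t.2.1 t.2.2) (l + 1) n1 n2 r1 r2 *
        blk (arr G2 t.2.2 t.1) (l + 1) n2 n0 r2 r0) := by
    intro r0 r1 r2
    haveI := haar3
    rw [← integral_add_right_eq_self (fun x : ℝ × ℝ × ℝ => w3 (c r0 r1 r2) x * P x) (c r0 r1 r2)]
    congr 1
    funext t
    simp only [w3, hc, hP, blk, arr, Prod.fst_add, Prod.snd_add, Prod.fst_zero, Prod.snd_zero,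
      sub_zero, add_sub_cancel_right]
    simp only [add_comm]
  simp_rw [e1]
  have i1 : ∀ r0 r1 r2, Integrable (fun x => s r0 r1 r2 * (w3 (c r0 r1 r2) x * P x)) :=
    fun r0 r1 r2 => (integrable_w3_mul hPB _).const_mul _
  rw [integral_finsetSum _ (fun r0 _ => integrable_finsetSum _ (fun r1 _ =>
    integrable_finsetSum _ (fun r2 _ => i1 r0 r1 r2)))]
  have e3 : ∀ t : ℝ × ℝ × ℝ, w3 0 t * T3 (α := Idx l) (blk (arr G0 t.1 t.2.1) (l + 1) n0 n1)
        (blk (arr G1 t.2.1 t.2.2) (l + 1) n1 n2) (blk (arr G2 t.2.2 t.1) (l + 1) n2 n0) =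
      ∑ r0 : Idx (l + 1), ∑ r1 : Idx (l + 1), ∑ r2 : Idx (l + 1), s r0 r1 r2 *
        (w3 0 t * (blk (arr G0 t.1 t.2.1) (l + 1) n0 n1 r0 r1 *
        blk (arr G1 t.2.1 t.2.2) (l + 1) n1 n2 r1 r2 *
        blk (arr G2 t.2.2 t.1) (l + 1) n2 n0 r2 r0)) := by
    intro t
    unfold T3
    rw [Finset.mul_sum]
    refine Finset.sum_congr rfl fun r0 _ => ?_
    rw [Finset.mul_sum]
    refine Finset.sum_congr rfl fun r1 _ => ?_
    rw [Finset.mul_sum]
    refine Finset.sum_congr rfl fun r2 _ => ?_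
    simp only [hs]
    ring
  simp_rw [e3]
  have i2 : ∀ r0 r1 r2, Integrable (fun t : ℝ × ℝ × ℝ => s r0 r1 r2 *
        (w3 0 t * (blk (arr G0 t.1 t.2.1) (l + 1) n0 n1 r0 r1 *
        blk (arr G1 t.2.1 t.2.2) (l + 1) n1 n2 r1 r2 *
        blk (arr G2 t.2.2 t.1) (l + 1) n2 n0 r2 r0))) := by
    intro r0 r1 r2
    refine (integrable_w3_mul ?_ _).const_mul _
    exact ((BM_a0 h0 _ _).mul (BM_a1 h1 _ _)).mul (BM_a2 h2 _ _)
  rw [integral_finsetSum _ (fun r0 _ => integrable_finsetSum _ (fun r1 _ =>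
    integrable_finsetSum _ (fun r2 _ => i2 r0 r1 r2)))]
  refine Finset.sum_congr rfl fun r0 _ => ?_
  rw [integral_finsetSum _ (fun r1 _ => integrable_finsetSum _ (fun r2 _ => i1 r0 r1 r2)),
    integral_finsetSum _ (fun r1 _ => integrable_finsetSum _ (fun r2 _ => i2 r0 r1 r2))]
  refine Finset.sum_congr rfl fun r1 _ => ?_
  rw [integral_finsetSum _ (fun r2 _ => i1 r0 r1 r2),
    integral_finsetSum _ (fun r2 _ => i2 r0 r1 r2)]
  refine Finset.sum_congr rfl fun r2 _ => ?_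
  rw [integral_const_mul, integral_const_mul, e2]

end Vale.Agent.H24.TH
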