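import Vale.Agent.H24.TH.L3

/-!
The sum bound at natural scales, given the discrete theorem.
-/

namespace Vale.Agent.H24.TH

open Finset MeasureTheory

theorem mp_assoc : MeasurePreserving (MeasurableEquiv.prodAssoc : (ℝ × ℝ) × ℝ ≃ᵐ ℝ × ℝ × ℝ)
    volume volume :=
  ⟨MeasurableEquiv.prodAssoc.measurable, Measure.prodAssoc_prod (μ := (volume : Measure ℝ))
    (ν := (volume : Measure ℝ)) (τ := (volume : Measure ℝ))⟩

/-- integral of a function of the first two variables -/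
theorem int3_a (H : ℝ × ℝ → ℝ) (v : ℝ → ℝ) :
    ∫ t : ℝ × ℝ × ℝ, H (t.1, t.2.1) * v t.2.2 = (∫ s, H s) * ∫ y, v y := by
  rw [← mp_assoc.integral_comp' (g := fun t : ℝ × ℝ × ℝ => H (t.1, t.2.1) * v t.2.2)]
  exact integral_prod_mul (μ := (volume : Measure (ℝ × ℝ))) (ν := (volume : Measure ℝ)) H v

/-- integral of a function of the last two variables -/
theorem int3_b (H : ℝ × ℝ → ℝ) (v : ℝ → ℝ) :
    ∫ t : ℝ × ℝ × ℝ, H (t.2.1, t.2.2) * v t.1 = (∫ s, H s) * ∫ y, v y := by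
  have := integral_prod_mul (μ := (volume : Measure ℝ)) (ν := (volume : Measure (ℝ × ℝ))) v H
  rw [mul_comm (∫ s, H s), ← this]
  apply integral_congr_ae
  filter_upwards with t
  rw [mul_comm]

/-- integral of a function of the third and first variable -/
theorem int3_c (H : ℝ × ℝ → ℝ) (v : ℝ → ℝ) :
    ∫ t : ℝ × ℝ × ℝ, H (t.2.2, t.1) * v t.2.1 = (∫ s, H s) * ∫ y, v y := by
  have e0 := Measure.measurePreserving_swap (μ := (volume : Measure (ℝ × ℝ)))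
    (ν := (volume : Measure ℝ))
  have e1 := e0.integral_comp MeasurableEquiv.prodComm.measurableEmbedding
    (fun t : ℝ × ℝ × ℝ => H (t.2.2, t.1) * v t.2.1)
  have e2 : ∫ t : ℝ × ℝ × ℝ, H (t.2.2, t.1) * v t.2.1 =
      ∫ x : (ℝ × ℝ) × ℝ, H (x.1.2, x.2) * v x.1.1 := e1.symm
  rw [e2, ← int3_b H v, ← mp_assoc.integral_comp'
    (g := fun t : ℝ × ℝ × ℝ => H (t.2.1, t.2.2) * v t.1)]
  rfl

/-- weight on the plane -/
noncomputable def w2 (s : ℝ × ℝ) : ℝ := u s.1 * u s.2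

theorem int_shift (G : ℝ × ℝ → ℝ) (a b : ℝ) :
    ∫ s : ℝ × ℝ, w2 s * |G (a + s.1, b + s.2)| ^ 3 =
      ∫ s : ℝ × ℝ, u (s.1 - a) * u (s.2 - b) * |G s| ^ 3 := by
  rw [← integral_add_right_eq_self (fun s : ℝ × ℝ => u (s.1 - a) * u (s.2 - b) * |G s| ^ 3) (a, b)]
  congr 1
  funext s
  simp only [w2, Prod.fst_add, Prod.snd_add, add_sub_cancel_right]
  congr 4
  ext <;> simp [add_comm]

theorem BM_cube {G : ℝ × ℝ → ℝ} (hG : BM G) : BM (fun x => |G x| ^ 3) := hG.abs.pow 3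

theorem integrable_uu {f : ℝ × ℝ → ℝ} (hf : BM f) (a b : ℝ) :
    Integrable (fun s : ℝ × ℝ => u (s.1 - a) * u (s.2 - b) * f s) := by
  obtain ⟨hf, M, hM⟩ := hf
  exact ((u_integrable a).mul_prod (u_integrable b)).mul_bdd (c := M) hf.aestronglyMeasurable
    (Filter.Eventually.of_forall (fun x => by simpa using hM x))

theorem measurableSet_Quad : MeasurableSet Quad := measurableSet_Ici.prod measurableSet_Ici

/-- sum over unit squares -/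
theorem sum_squares {G : ℝ × ℝ → ℝ} (hG : BM G) (hi : IntegrableOn (fun x => |G x| ^ 3) Quad)
    (M : ℕ) :
    ∑ i ∈ range M, ∑ j ∈ range M, ∫ s : ℝ × ℝ, w2 s * |G ((i : ℝ) + s.1, (j : ℝ) + s.2)| ^ 3 ≤
      ∫ x in Quad, |G x| ^ 3 := by
  simp_rw [int_shift]
  have hI : ∀ i j : ℕ, Integrable (fun s : ℝ × ℝ => u (s.1 - i) * u (s.2 - j) * |G s| ^ 3) :=
    fun i j => integrable_uu (BM_cube hG) _ _
  rw [← integral_indicator measurableSet_Quad]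
  have e1 : ∑ i ∈ range M, ∑ j ∈ range M,
      ∫ s : ℝ × ℝ, u (s.1 - i) * u (s.2 - j) * |G s| ^ 3 =
      ∫ s : ℝ × ℝ, ∑ i ∈ range M, ∑ j ∈ range M, u (s.1 - i) * u (s.2 - j) * |G s| ^ 3 := by
    rw [integral_finsetSum _ (fun i _ => integrable_finsetSum _ (fun j _ => hI i j))]
    refine Finset.sum_congr rfl fun i _ => ?_
    rw [integral_finsetSum _ (fun j _ => hI i j)]
  rw [e1]
  apply integral_mono
  · exact integrable_finsetSum _ (fun i _ => integrable_finsetSum _ (fun j _ => hI i j))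
  · exact (integrable_indicator_iff measurableSet_Quad).mpr hi
  · intro s
    have e2 : ∑ i ∈ range M, ∑ j ∈ range M, u (s.1 - i) * u (s.2 - j) * |G s| ^ 3 =
        (∑ i ∈ range M, u (s.1 - (0 + i))) * (∑ j ∈ range M, u (s.2 - (0 + j))) * |G s| ^ 3 := by
      rw [Finset.sum_mul_sum, Finset.sum_mul]
      refine Finset.sum_congr rfl fun i _ => ?_
      rw [Finset.sum_mul]
      simp
    simp only
    rw [e2, sum_u, sum_u]
    have h3 : 0 ≤ |G s| ^ 3 := by positivity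
    by_cases hs : s ∈ Quad
    · rw [Set.indicator_of_mem hs]
      split_ifs <;> simp [h3]
    · rw [Set.indicator_of_notMem hs]
      simp only [Quad, Set.mem_prod, Set.mem_Ici, not_and_or, not_le] at hs
      rcases hs with hs | hs
      · rw [if_neg (fun h => by linarith [h.1])]; simp
      · rw [if_neg (c := 0 ≤ s.2 ∧ s.2 < 0 + (M : ℝ)) (fun h => by linarith [h.1])]; simp

theorem w3_zero (t : ℝ × ℝ × ℝ) : w3 0 t = u t.1 * (u t.2.1 * u t.2.2) := by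
  simp [w3]

theorem sum_val2 (J : ℕ) (f : ℕ → ℕ → ℝ) :
    ∑ x : Idx J, ∑ y : Idx J, f (val J x) (val J y) =
      ∑ i ∈ range (2 ^ J), ∑ j ∈ range (2 ^ J), f i j := by
  simp_rw [sum_val J]
  rw [sum_val J (fun i => ∑ m ∈ range (2 ^ J), f i m)]

theorem point_bound {G0 G1 G2 : ℝ × ℝ → ℝ} (h0 : BM G0) (h1 : BM G1) (h2 : BM G2)
    (i0 : IntegrableOn (fun x => |G0 x| ^ 3) Quad) (i1 : IntegrableOn (fun x => |G1 x| ^ 3) Quad)
    (i2 : IntegrableOn (fun x => |G2 x| ^ 3) Quad) (J : ℕ) :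
    ∫ t : ℝ × ℝ × ℝ, w3 0 t * (∑ x : Idx J, ∑ y : Idx J,
      (|blk (arr G0 t.1 t.2.1) J 0 0 x y| ^ 3 + |blk (arr G1 t.2.1 t.2.2) J 0 0 x y| ^ 3 +
        |blk (arr G2 t.2.2 t.1) J 0 0 x y| ^ 3)) ≤
      (∫ x in Quad, |G0 x| ^ 3) + (∫ x in Quad, |G1 x| ^ 3) + ∫ x in Quad, |G2 x| ^ 3 := by
  have b0 : ∀ i j, BM (fun t : ℝ × ℝ × ℝ => |arr G0 t.1 t.2.1 i j| ^ 3) :=
    fun i j => (BM_a0 h0 i j).abs.pow 3
  have b1 : ∀ i j, BM (fun t : ℝ × ℝ × ℝ => |arr G1 t.2.1 t.2.2 i j| ^ 3) :=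
    fun i j => (BM_a1 h1 i j).abs.pow 3
  have b2 : ∀ i j, BM (fun t : ℝ × ℝ × ℝ => |arr G2 t.2.2 t.1 i j| ^ 3) :=
    fun i j => (BM_a2 h2 i j).abs.pow 3
  have e1 : ∀ t : ℝ × ℝ × ℝ, w3 0 t * (∑ x : Idx J, ∑ y : Idx J,
      (|blk (arr G0 t.1 t.2.1) J 0 0 x y| ^ 3 + |blk (arr G1 t.2.1 t.2.2) J 0 0 x y| ^ 3 +
        |blk (arr G2 t.2.2 t.1) J 0 0 x y| ^ 3)) =
      ∑ i ∈ range (2 ^ J), ∑ j ∈ range (2 ^ J),
        (w3 0 t * |arr G0 t.1 t.2.1 i j| ^ 3 + w3 0 t * |arr G1 t.2.1 t.2.2 i j| ^ 3 +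
          w3 0 t * |arr G2 t.2.2 t.1 i j| ^ 3) := by
    intro t
    simp only [blk, mul_zero, zero_add]
    rw [sum_val2 J (fun i j => |arr G0 t.1 t.2.1 i j| ^ 3 + |arr G1 t.2.1 t.2.2 i j| ^ 3 +
      |arr G2 t.2.2 t.1 i j| ^ 3), Finset.mul_sum]
    refine Finset.sum_congr rfl fun i _ => ?_
    rw [Finset.mul_sum]
    refine Finset.sum_congr rfl fun j _ => ?_
    ring
  simp_rw [e1]
  have j0 : ∀ i j, Integrable (fun t : ℝ × ℝ × ℝ => w3 0 t * |arr G0 t.1 t.2.1 i j| ^ 3) :=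
    fun i j => integrable_w3_mul (b0 i j) 0
  have j1 : ∀ i j, Integrable (fun t : ℝ × ℝ × ℝ => w3 0 t * |arr G1 t.2.1 t.2.2 i j| ^ 3) :=
    fun i j => integrable_w3_mul (b1 i j) 0
  have j2 : ∀ i j, Integrable (fun t : ℝ × ℝ × ℝ => w3 0 t * |arr G2 t.2.2 t.1 i j| ^ 3) :=
    fun i j => integrable_w3_mul (b2 i j) 0
  have j3 : ∀ i j, Integrable (fun t : ℝ × ℝ × ℝ => w3 0 t * |arr G0 t.1 t.2.1 i j| ^ 3 +
      w3 0 t * |arr G1 t.2.1 t.2.2 i j| ^ 3) := fun i j => (j0 i j).add (j1 i j)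
  have j4 : ∀ i j, Integrable (fun t : ℝ × ℝ × ℝ => w3 0 t * |arr G0 t.1 t.2.1 i j| ^ 3 +
      w3 0 t * |arr G1 t.2.1 t.2.2 i j| ^ 3 + w3 0 t * |arr G2 t.2.2 t.1 i j| ^ 3) :=
    fun i j => (j3 i j).add (j2 i j)
  rw [integral_finsetSum _ (fun i _ => integrable_finsetSum _ (fun j _ => j4 i j))]
  have e2 : ∀ i ∈ range (2 ^ J), ∫ t : ℝ × ℝ × ℝ, ∑ j ∈ range (2 ^ J),
        (w3 0 t * |arr G0 t.1 t.2.1 i j| ^ 3 + w3 0 t * |arr G1 t.2.1 t.2.2 i j| ^ 3 +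
          w3 0 t * |arr G2 t.2.2 t.1 i j| ^ 3) = ∑ j ∈ range (2 ^ J),
      ((∫ s : ℝ × ℝ, w2 s * |G0 ((i : ℝ) + s.1, (j : ℝ) + s.2)| ^ 3) +
       (∫ s : ℝ × ℝ, w2 s * |G1 ((i : ℝ) + s.1, (j : ℝ) + s.2)| ^ 3) +
       ∫ s : ℝ × ℝ, w2 s * |G2 ((i : ℝ) + s.1, (j : ℝ) + s.2)| ^ 3) := by
    intro i _
    rw [integral_finsetSum _ (fun j _ => j4 i j)]
    refine Finset.sum_congr rfl fun j _ => ?_
    rw [integral_add (j3 i j) (j2 i j), integral_add (j0 i j) (j1 i j)]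
    congr 1
    · congr 1
      · have := int3_a (fun s => w2 s * |G0 ((i : ℝ) + s.1, (j : ℝ) + s.2)| ^ 3) u
        rw [integral_u, mul_one] at this
        rw [← this]
        congr 1; funext t; simp only [w3_zero, w2, arr]; ring
      · have := int3_b (fun s => w2 s * |G1 ((i : ℝ) + s.1, (j : ℝ) + s.2)| ^ 3) u
        rw [integral_u, mul_one] at this
        rw [← this]
        congr 1; funext t; simp only [w3_zero, w2, arr]; ring
    · have := int3_c (fun s => w2 s * |G2 ((i : ℝ) + s.1, (j : ℝ) + s.2)| ^ 3) u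
      rw [integral_u, mul_one] at this
      rw [← this]
      congr 1; funext t; simp only [w3_zero, w2, arr]; ring
  rw [Finset.sum_congr rfl e2]
  simp only [Finset.sum_add_distrib]
  exact add_le_add (add_le_add (sum_squares h0 i0 _) (sum_squares h1 i1 _)) (sum_squares h2 i2 _)

/-- the discrete theorem as a hypothesis -/
def Discrete (C : ℝ) : Prop := ∀ (j : ℕ) (F0 F1 F2 : Matrix (Idx j) (Idx j) ℝ),
    V j F0 F1 F2 ≤ C * ∑ x, ∑ y, (|F0 x y| ^ 3 + |F1 x y| ^ 3 + |F2 x y| ^ 3)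

theorem LI_le {G0 G1 G2 : ℝ × ℝ → ℝ} (h0 : BM G0) (h1 : BM G1) (h2 : BM G2) (l n0 n1 : ℕ) :
    |LI G0 G1 G2 ((l + 1 : ℕ) : ℤ) (n0, n1, n0 ^^^ n1)| ≤
      ∫ t : ℝ × ℝ × ℝ, w3 0 t * Dt (arr G0 t.1 t.2.1) (arr G1 t.2.1 t.2.2) (arr G2 t.2.2 t.1)
        l n0 n1 := by
  rw [LI_nat h0 h1 h2, abs_mul, abs_of_pos (a := ((2 : ℝ) ^ (l + 1))⁻¹) (by positivity)]
  refine (mul_le_mul_of_nonneg_left abs_integral_le_integral_abs (by positivity)).trans ?_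
  rw [← integral_const_mul]
  apply le_of_eq
  congr 1
  funext t
  rw [abs_mul, abs_of_nonneg (w3_nonneg _ _), Dt]
  ring

theorem BM_Dt {G0 G1 G2 : ℝ × ℝ → ℝ} (h0 : BM G0) (h1 : BM G1) (h2 : BM G2) (l n0 n1 : ℕ) :
    BM (fun t : ℝ × ℝ × ℝ => Dt (arr G0 t.1 t.2.1) (arr G1 t.2.1 t.2.2) (arr G2 t.2.2 t.1)
        l n0 n1) := by
  unfold Dt
  exact (BM.const _).mul (BM_T3 h0 h1 h2 l n0 n1 (n0 ^^^ n1)).abs

theorem nat_bound {C : ℝ} (hC : 0 ≤ C) (hd : Discrete C) {G0 G1 G2 : ℝ × ℝ → ℝ}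
    (h0 : BM G0) (h1 : BM G1) (h2 : BM G2)
    (i0 : IntegrableOn (fun x => |G0 x| ^ 3) Quad) (i1 : IntegrableOn (fun x => |G1 x| ^ 3) Quad)
    (i2 : IntegrableOn (fun x => |G2 x| ^ 3) Quad) (J : ℕ) :
    ∑ l ∈ range J, ∑ m0 ∈ range (2 ^ (J - 1 - l)), ∑ m1 ∈ range (2 ^ (J - 1 - l)),
      |LI G0 G1 G2 ((l + 1 : ℕ) : ℤ) (m0, m1, m0 ^^^ m1)| ≤
      C * ((∫ x in Quad, |G0 x| ^ 3) + (∫ x in Quad, |G1 x| ^ 3) + ∫ x in Quad, |G2 x| ^ 3) := by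
  have hI : ∀ l m0 m1, Integrable (fun t : ℝ × ℝ × ℝ => w3 0 t *
      Dt (arr G0 t.1 t.2.1) (arr G1 t.2.1 t.2.2) (arr G2 t.2.2 t.1) l m0 m1) :=
    fun l m0 m1 => integrable_w3_mul (BM_Dt h0 h1 h2 l m0 m1) 0
  calc _ ≤ ∑ l ∈ range J, ∑ m0 ∈ range (2 ^ (J - 1 - l)), ∑ m1 ∈ range (2 ^ (J - 1 - l)),
        ∫ t : ℝ × ℝ × ℝ, w3 0 t * Dt (arr G0 t.1 t.2.1) (arr G1 t.2.1 t.2.2) (arr G2 t.2.2 t.1)
          l m0 m1 := by
        refine Finset.sum_le_sum fun l _ => Finset.sum_le_sum fun m0 _ =>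
          Finset.sum_le_sum fun m1 _ => LI_le h0 h1 h2 l m0 m1
    _ = ∫ t : ℝ × ℝ × ℝ, w3 0 t * V J (blk (arr G0 t.1 t.2.1) J 0 0)
          (blk (arr G1 t.2.1 t.2.2) J 0 (0 ^^^ 0)) (blk (arr G2 t.2.2 t.1) J (0 ^^^ 0) 0) := by
        simp_rw [V_blk, mul_zero, zero_add, Finset.mul_sum]
        rw [integral_finsetSum _ (fun l _ => integrable_finsetSum _ (fun m0 _ =>
          integrable_finsetSum _ (fun m1 _ => hI l m0 m1)))]
        refine Finset.sum_congr rfl fun l _ => ?_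
        rw [integral_finsetSum _ (fun m0 _ =>
          integrable_finsetSum _ (fun m1 _ => hI l m0 m1))]
        refine Finset.sum_congr rfl fun m0 _ => ?_
        rw [integral_finsetSum _ (fun m1 _ => hI l m0 m1)]
    _ ≤ ∫ t : ℝ × ℝ × ℝ, C * (w3 0 t * (∑ x : Idx J, ∑ y : Idx J,
          (|blk (arr G0 t.1 t.2.1) J 0 0 x y| ^ 3 + |blk (arr G1 t.2.1 t.2.2) J 0 0 x y| ^ 3 +
            |blk (arr G2 t.2.2 t.1) J 0 0 x y| ^ 3))) := by
        apply integral_mono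
        · simp_rw [V_blk, mul_zero, zero_add]
          exact integrable_w3_mul (BM.sum _ fun l => BM.sum _ fun m0 => BM.sum _ fun m1 =>
            BM_Dt h0 h1 h2 l m0 m1) 0
        · refine (integrable_w3_mul ?_ 0).const_mul C
          refine BM.sum _ fun x => BM.sum _ fun y => ?_
          unfold blk
          exact (((BM_a0 h0 _ _).abs.pow 3).add ((BM_a1 h1 _ _).abs.pow 3)).add
            ((BM_a2 h2 _ _).abs.pow 3)
        · intro t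
          have := hd J (blk (arr G0 t.1 t.2.1) J 0 0) (blk (arr G1 t.2.1 t.2.2) J 0 0)
            (blk (arr G2 t.2.2 t.1) J 0 0)
          calc w3 0 t * V J (blk (arr G0 t.1 t.2.1) J 0 0)
                (blk (arr G1 t.2.1 t.2.2) J 0 (0 ^^^ 0)) (blk (arr G2 t.2.2 t.1) J (0 ^^^ 0) 0)
              ≤ w3 0 t * (C * ∑ x, ∑ y, (|blk (arr G0 t.1 t.2.1) J 0 0 x y| ^ 3 +
                |blk (arr G1 t.2.1 t.2.2) J 0 0 x y| ^ 3 +
                |blk (arr G2 t.2.2 t.1) J 0 0 x y| ^ 3)) :=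
                mul_le_mul_of_nonneg_left this (w3_nonneg _ _)
            _ = _ := by ring
    _ ≤ _ := by
        rw [integral_const_mul]
        exact mul_le_mul_of_nonneg_left (point_bound h0 h1 h2 i0 i1 i2 J) hC

end Vale.Agent.H24.TH
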