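import Vale.Agent.H24.TH.L4

/-!
Scaling, summation over admissible triples, homogenisation.
-/

namespace Vale.Agent.H24.TH

open Finset MeasureTheory Filter Topology

theorem LI_full (F0 F1 F2 : ℝ × ℝ → ℝ) (k : ℤ) (n : ℕ × ℕ × ℕ) :
    LI F0 F1 F2 k n = (2 : ℝ) ^ (-k) * ∫ x : ℝ × ℝ × ℝ,
      F0 (x.1, x.2.1) * F1 (x.2.1, x.2.2) * F2 (x.2.2, x.1) *
      (haar k n.1 x.1 * haar k n.2.1 x.2.1 * haar k n.2.2 x.2.2) := by
  unfold LI
  congr 1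
  rw [setIntegral_eq_integral_of_forall_compl_eq_zero]
  intro x hx
  simp only [Set.mem_prod, not_and_or] at hx
  rcases hx with hx | hx | hx
  · rw [haar_zero_of_notMem hx]; ring
  · rw [haar_zero_of_notMem hx]; ring
  · rw [haar_zero_of_notMem hx]; ring

theorem haar_scale (k : ℤ) (N : ℕ) (n : ℕ) (y : ℝ) :
    haar k n ((2 : ℝ) ^ (-(N : ℤ)) * y) = haar (k + N) n y := by
  have hN : (0 : ℝ) < 2 ^ (N : ℤ) := by positivity
  have key : ∀ a : ℝ, ((2 : ℝ) ^ k * a ≤ 2 ^ (-(N : ℤ)) * y ↔ (2 : ℝ) ^ (k + N) * a ≤ y) := by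
    intro a
    rw [zpow_neg, zpow_add₀ (by norm_num : (2 : ℝ) ≠ 0), inv_mul_eq_div, le_div_iff₀ hN]
    ring_nf
  have key2 : ∀ a : ℝ, ((2 : ℝ) ^ (-(N : ℤ)) * y < 2 ^ k * a ↔ y < (2 : ℝ) ^ (k + N) * a) := by
    intro a
    rw [← not_le, ← not_le, key]
  unfold haar Set.indicator
  simp only [Set.mem_Ico, key, key2]

theorem LI_scale (F0 F1 F2 : ℝ × ℝ → ℝ) (k : ℤ) (N : ℕ) (n : ℕ × ℕ × ℕ) :
    LI F0 F1 F2 k n = ((2 : ℝ) ^ (-(N : ℤ))) ^ 2 *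
      LI (fun x => F0 ((2 : ℝ) ^ (-(N : ℤ)) • x)) (fun x => F1 ((2 : ℝ) ^ (-(N : ℤ)) • x))
        (fun x => F2 ((2 : ℝ) ^ (-(N : ℤ)) • x)) (k + N) n := by
  rw [LI_full, LI_full]
  set δ : ℝ := (2 : ℝ) ^ (-(N : ℤ)) with hδ
  have hδ0 : 0 < δ := by positivity
  set Φ : ℝ × ℝ × ℝ → ℝ := fun x => F0 (x.1, x.2.1) * F1 (x.2.1, x.2.2) * F2 (x.2.2, x.1) *
      (haar k n.1 x.1 * haar k n.2.1 x.2.1 * haar k n.2.2 x.2.2) with hΦ
  have := haar3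
  have h1 := Measure.integral_comp_smul (volume : Measure (ℝ × ℝ × ℝ)) Φ δ
  have h2 : Module.finrank ℝ (ℝ × ℝ × ℝ) = 3 := by
    simp [Module.finrank_prod]
  rw [h2, abs_of_pos (by positivity), smul_eq_mul] at h1
  have h3 : ∫ x : ℝ × ℝ × ℝ, F0 (δ • (x.1, x.2.1)) * F1 (δ • (x.2.1, x.2.2)) *
      F2 (δ • (x.2.2, x.1)) * (haar (k + N) n.1 x.1 * haar (k + N) n.2.1 x.2.1 *
        haar (k + N) n.2.2 x.2.2) = ∫ x, Φ (δ • x) := by
    congr 1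
    funext x
    simp only [hΦ, Prod.smul_fst, Prod.smul_snd, smul_eq_mul, hδ, haar_scale, Prod.smul_mk]
  rw [h3, h1]
  have h4 : (2 : ℝ) ^ (-k) = 2 ^ (-(k + N)) * δ⁻¹ := by
    rw [hδ, ← zpow_neg, ← zpow_add₀ (by norm_num : (2 : ℝ) ≠ 0)]
    congr 1; ring
  rw [h4]
  field_simp

theorem norm_scale (F : ℝ × ℝ → ℝ) (N : ℕ) :
    ∫ x in Quad, |F x| ^ 3 = ((2 : ℝ) ^ (-(N : ℤ))) ^ 2 *
      ∫ x in Quad, |F ((2 : ℝ) ^ (-(N : ℤ)) • x)| ^ 3 := by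
  set δ : ℝ := (2 : ℝ) ^ (-(N : ℤ)) with hδ
  have hδ0 : 0 < δ := by positivity
  rw [← integral_indicator measurableSet_Quad, ← integral_indicator measurableSet_Quad]
  have h1 := Measure.integral_comp_smul (volume : Measure (ℝ × ℝ))
    (Set.indicator Quad (fun x => |F x| ^ 3)) δ
  have h2 : Module.finrank ℝ (ℝ × ℝ) = 2 := by simp
  rw [h2, abs_of_pos (by positivity), smul_eq_mul] at h1
  have h3 : ∫ x : ℝ × ℝ, Set.indicator Quad (fun x => |F (δ • x)| ^ 3) x =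
      ∫ x, Set.indicator Quad (fun x => |F x| ^ 3) (δ • x) := by
    congr 1
    funext x
    have : δ • x ∈ Quad ↔ x ∈ Quad := by
      simp only [Quad, Set.mem_prod, Set.mem_Ici, Prod.smul_fst, Prod.smul_snd, smul_eq_mul]
      constructor
      · rintro ⟨a, b⟩; exact ⟨nonneg_of_mul_nonneg_right (by linarith) hδ0 |> fun h => h,
          nonneg_of_mul_nonneg_right (by linarith) hδ0 |> fun h => h⟩
      · rintro ⟨a, b⟩; exact ⟨by positivity, by positivity⟩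
    by_cases hx : x ∈ Quad
    · rw [Set.indicator_of_mem hx, Set.indicator_of_mem (this.mpr hx)]
    · rw [Set.indicator_of_notMem hx, Set.indicator_of_notMem (fun h => hx (this.mp h))]
  rw [h3, h1]
  field_simp

/-- admissible triples are pairs -/
def eAdm : ℕ × ℕ ≃ Adm where
  toFun m := ⟨(m.1, m.2, m.1 ^^^ m.2), by
    show (m.1 ^^^ m.2) ^^^ (m.1 ^^^ m.2) = 0
    exact Nat.xor_self _⟩
  invFun n := (n.1.1, n.1.2.1)
  left_inv m := rfl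
  right_inv n := by
    obtain ⟨⟨a, b, c⟩, h⟩ := n
    have h : a ^^^ b ^^^ c = 0 := h
    have h' : a ^^^ b = c := by
      have := congrArg (· ^^^ c) h
      simpa [Nat.xor_assoc] using this
    simp [h']

theorem LI_zero_of_large {G0 G1 G2 : ℝ × ℝ → ℝ} {R : ℝ}
    (hR : ∀ x : ℝ × ℝ, R ≤ x.1 ∨ R ≤ x.2 → G0 x = 0) {k : ℤ} {n : ℕ × ℕ × ℕ}
    (hn : R ≤ (2 : ℝ) ^ k * n.1 ∨ R ≤ (2 : ℝ) ^ k * n.2.1) : LI G0 G1 G2 k n = 0 := by
  unfold LI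
  rw [setIntegral_eq_zero_of_forall_eq_zero, mul_zero]
  intro x hx
  simp only [dyad, Set.mem_prod, Set.mem_Ico] at hx
  rw [hR (x.1, x.2.1)]
  · ring
  · rcases hn with hn | hn
    · left; exact hn.trans hx.1.1
    · right; exact hn.trans hx.2.1.1

theorem tsum_nat {G0 G1 G2 : ℝ × ℝ → ℝ} {l J : ℕ} (hl : l < J)
    (hR : ∀ x : ℝ × ℝ, (2 : ℝ) ^ J ≤ x.1 ∨ (2 : ℝ) ^ J ≤ x.2 → G0 x = 0) :
    Summable (fun n : Adm => |LI G0 G1 G2 ((l + 1 : ℕ) : ℤ) n|) ∧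
    ∑' n : Adm, |LI G0 G1 G2 ((l + 1 : ℕ) : ℤ) n| =
      ∑ m0 ∈ range (2 ^ (J - 1 - l)), ∑ m1 ∈ range (2 ^ (J - 1 - l)),
        |LI G0 G1 G2 ((l + 1 : ℕ) : ℤ) (m0, m1, m0 ^^^ m1)| := by
  have h0 : ∀ m ∉ (range (2 ^ (J - 1 - l)) ×ˢ range (2 ^ (J - 1 - l)) : Finset (ℕ × ℕ)),
      |LI G0 G1 G2 ((l + 1 : ℕ) : ℤ) (eAdm m : ℕ × ℕ × ℕ)| = 0 := by
    intro m hm
    rw [abs_eq_zero]
    apply LI_zero_of_large hR
    simp only [Finset.mem_product, Finset.mem_range, not_and_or, not_lt] at hm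
    have e : (2 : ℝ) ^ J = 2 ^ (l + 1) * ((2 ^ (J - 1 - l) : ℕ) : ℝ) := by
      push_cast
      rw [← pow_add]; congr 1; omega
    rw [zpow_natCast, e]
    rcases hm with hm | hm
    · left
      have : ((2 ^ (J - 1 - l) : ℕ) : ℝ) ≤ m.1 := by exact_mod_cast hm
      exact mul_le_mul_of_nonneg_left this (by positivity)
    · right
      have : ((2 ^ (J - 1 - l) : ℕ) : ℝ) ≤ m.2 := by exact_mod_cast hm
      exact mul_le_mul_of_nonneg_left this (by positivity)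
  have hs : Summable (fun m : ℕ × ℕ => |LI G0 G1 G2 ((l + 1 : ℕ) : ℤ) (eAdm m : ℕ × ℕ × ℕ)|) :=
    summable_of_ne_finset_zero h0
  constructor
  · exact (Equiv.summable_iff eAdm).mp hs
  · rw [← Equiv.tsum_eq eAdm, tsum_eq_sum h0, Finset.sum_product]
    rfl

/-- bounded, measurable, vanishing far out -/
structure Nice (F : ℝ × ℝ → ℝ) : Prop where
  bm : BM F
  supp : ∃ R : ℝ, ∀ x : ℝ × ℝ, R ≤ x.1 ∨ R ≤ x.2 → F x = 0

theorem Nice.integrableOn {F : ℝ × ℝ → ℝ} (h : Nice F) :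
    IntegrableOn (fun x => |F x| ^ 3) Quad := by
  obtain ⟨R, hR⟩ := h.supp
  obtain ⟨hm, M, hM⟩ := BM_cube h.bm
  have h1 : IntegrableOn (fun x => |F x| ^ 3) (Set.Ico 0 R ×ˢ Set.Ico 0 R) := by
    apply Measure.integrableOn_of_bounded (M := M)
    · rw [Measure.volume_eq_prod, Measure.prod_prod]
      simp only [Real.volume_Ico, sub_zero, ne_eq]
      exact ENNReal.mul_ne_top ENNReal.ofReal_ne_top ENNReal.ofReal_ne_top
    · exact hm.aestronglyMeasurable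
    · filter_upwards with x
      simpa using hM x
  apply h1.of_forall_sdiff_eq_zero measurableSet_Quad
  rintro x ⟨hx, hx'⟩
  simp only [Quad, Set.mem_prod, Set.mem_Ici, Set.mem_Ico, not_and_or, not_lt] at hx hx'
  have : R ≤ x.1 ∨ R ≤ x.2 := by
    rcases hx' with (h | h) | (h | h)
    · exact absurd hx.1 h
    · exact Or.inl h
    · exact absurd hx.2 h
    · exact Or.inr h
  rw [hR x this]; simp

theorem additive {C : ℝ} (hC : 0 ≤ C) (hd : Discrete C) {F0 F1 F2 : ℝ × ℝ → ℝ}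
    (h0 : Nice F0) (h1 : Nice F1) (h2 : Nice F2) (S : Finset ℤ) :
    (∀ k ∈ S, Summable (fun n : Adm => |LI F0 F1 F2 k n|)) ∧
    ∑ k ∈ S, ∑' n : Adm, |LI F0 F1 F2 k n| ≤
      C * ((∫ x in Quad, |F0 x| ^ 3) + (∫ x in Quad, |F1 x| ^ 3) + ∫ x in Quad, |F2 x| ^ 3) := by
  obtain ⟨R, hR⟩ := h0.supp
  -- choose N
  obtain ⟨N, hN⟩ : ∃ N : ℕ, ∀ k ∈ S, 1 ≤ k + N := by
    refine ⟨∑ k ∈ S, k.natAbs + 1, fun k hk => ?_⟩
    have := Finset.single_le_sum (f := fun k : ℤ => k.natAbs) (fun _ _ => Nat.zero_le _) hk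
    omega
  obtain ⟨J1, hJ1⟩ : ∃ J : ℕ, ∀ k ∈ S, k + N ≤ J := by
    refine ⟨∑ k ∈ S, k.natAbs + N, fun k hk => ?_⟩
    have := Finset.single_le_sum (f := fun k : ℤ => k.natAbs) (fun _ _ => Nat.zero_le _) hk
    omega
  obtain ⟨J2, hJ2⟩ := pow_unbounded_of_one_lt (R * 2 ^ N) (by norm_num : (1 : ℝ) < 2)
  set J := max J1 J2 with hJ
  set δ : ℝ := (2 : ℝ) ^ (-(N : ℤ)) with hδ
  have hδ0 : 0 < δ := by positivity
  have hδ' : δ * 2 ^ N = 1 := by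
    rw [hδ, zpow_neg, zpow_natCast]; field_simp
  have hRJ : R ≤ δ * 2 ^ J := by
    have e1 : R * 2 ^ N ≤ 2 ^ J := hJ2.le.trans
      (pow_le_pow_right₀ (by norm_num) (le_max_right _ _))
    calc R = δ * (R * 2 ^ N) := by rw [mul_comm R, ← mul_assoc, hδ', one_mul]
      _ ≤ _ := mul_le_mul_of_nonneg_left e1 hδ0.le
  set G0 : ℝ × ℝ → ℝ := fun x => F0 (δ • x) with hG0
  set G1 : ℝ × ℝ → ℝ := fun x => F1 (δ • x) with hG1
  set G2 : ℝ × ℝ → ℝ := fun x => F2 (δ • x) with hG2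
  have nice : ∀ {F : ℝ × ℝ → ℝ}, Nice F → Nice (fun x => F (δ • x)) := by
    intro F hF
    refine ⟨hF.bm.comp (measurable_const_smul δ), ?_⟩
    obtain ⟨R', hR'⟩ := hF.supp
    refine ⟨R' / δ, fun x hx => hR' _ ?_⟩
    rw [div_le_iff₀ hδ0, div_le_iff₀ hδ0] at hx
    simpa [mul_comm] using hx
  have g0 := nice h0
  have g1 := nice h1
  have g2 := nice h2
  have hG : ∀ x : ℝ × ℝ, (2 : ℝ) ^ J ≤ x.1 ∨ (2 : ℝ) ^ J ≤ x.2 → G0 x = 0 := by
    intro x hx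
    apply hR
    simp only [Prod.smul_fst, Prod.smul_snd, smul_eq_mul]
    rcases hx with hx | hx
    · left; exact hRJ.trans (mul_le_mul_of_nonneg_left hx hδ0.le)
    · right; exact hRJ.trans (mul_le_mul_of_nonneg_left hx hδ0.le)
  -- level of k
  set lv : ℤ → ℕ := fun k => (k + N - 1).toNat with hlv
  have hlv1 : ∀ k ∈ S, ((lv k + 1 : ℕ) : ℤ) = k + N := by
    intro k hk
    have := hN k hk
    simp only [hlv]; omega
  have hlv2 : ∀ k ∈ S, lv k < J := by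
    intro k hk
    have a := hN k hk
    have b := hJ1 k hk
    have c : J1 ≤ J := le_max_left _ _
    simp only [hlv]; omega
  have hLI : ∀ k ∈ S, ∀ n, |LI F0 F1 F2 k n| =
      δ ^ 2 * |LI G0 G1 G2 ((lv k + 1 : ℕ) : ℤ) n| := by
    intro k hk n
    rw [hlv1 k hk, LI_scale F0 F1 F2 k N n, abs_mul, abs_of_pos (by positivity)]
  have hS : ∀ k ∈ S, Summable (fun n : Adm => |LI F0 F1 F2 k n|) := by
    intro k hk
    simp_rw [hLI k hk]
    exact (tsum_nat (G1 := G1) (G2 := G2) (hlv2 k hk) hG).1.mul_left _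
  refine ⟨hS, ?_⟩
  set D : ℕ → ℝ := fun l => ∑ m0 ∈ range (2 ^ (J - 1 - l)), ∑ m1 ∈ range (2 ^ (J - 1 - l)),
        |LI G0 G1 G2 ((l + 1 : ℕ) : ℤ) (m0, m1, m0 ^^^ m1)| with hD
  have hD0 : ∀ l, 0 ≤ D l := fun l => Finset.sum_nonneg fun _ _ =>
    Finset.sum_nonneg fun _ _ => abs_nonneg _
  have e1 : ∑ k ∈ S, ∑' n : Adm, |LI F0 F1 F2 k n| = δ ^ 2 * ∑ k ∈ S, D (lv k) := by
    rw [Finset.mul_sum]
    refine Finset.sum_congr rfl fun k hk => ?_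
    simp_rw [hLI k hk]
    rw [tsum_mul_left, (tsum_nat (G1 := G1) (G2 := G2) (hlv2 k hk) hG).2]
  have e2 : ∑ k ∈ S, D (lv k) ≤ ∑ l ∈ range J, D l := by
    rw [← Finset.sum_image (s := S) (g := lv) (f := D)]
    · apply Finset.sum_le_sum_of_subset_of_nonneg
      · intro l hl
        obtain ⟨k, hk, rfl⟩ := Finset.mem_image.mp hl
        exact Finset.mem_range.mpr (hlv2 k hk)
      · intro l _ _; exact hD0 l
    · intro k hk k' hk' h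
      have a := hlv1 k hk
      have b := hlv1 k' hk'
      rw [h] at a
      omega
  have e3 := nat_bound hC hd g0.bm g1.bm g2.bm g0.integrableOn g1.integrableOn g2.integrableOn J
  rw [e1, norm_scale F0 N, norm_scale F1 N, norm_scale F2 N]
  calc δ ^ 2 * ∑ k ∈ S, D (lv k) ≤ δ ^ 2 * (C * ((∫ x in Quad, |G0 x| ^ 3) +
        (∫ x in Quad, |G1 x| ^ 3) + ∫ x in Quad, |G2 x| ^ 3)) :=
        mul_le_mul_of_nonneg_left (e2.trans e3) (by positivity)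
    _ = _ := by simp only [hG0, hG1, hG2]; ring

theorem LI_smul (F0 F1 F2 : ℝ × ℝ → ℝ) (a b c : ℝ) (k : ℤ) (n : ℕ × ℕ × ℕ) :
    LI (fun x => a * F0 x) (fun x => b * F1 x) (fun x => c * F2 x) k n =
      a * b * c * LI F0 F1 F2 k n := by
  have e : ∀ x : ℝ × ℝ × ℝ, (a * F0 (x.1, x.2.1)) * (b * F1 (x.2.1, x.2.2)) *
      (c * F2 (x.2.2, x.1)) * (haar k n.1 x.1 * haar k n.2.1 x.2.1 * haar k n.2.2 x.2.2) =
      (a * b * c) * (F0 (x.1, x.2.1) * F1 (x.2.1, x.2.2) *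
      F2 (x.2.2, x.1) * (haar k n.1 x.1 * haar k n.2.1 x.2.1 * haar k n.2.2 x.2.2)) := by
    intro x; ring
  unfold LI
  simp_rw [e]
  rw [integral_const_mul]
  ring

theorem Nice.const_mul {F : ℝ × ℝ → ℝ} (h : Nice F) (a : ℝ) : Nice (fun x => a * F x) := by
  refine ⟨(BM.const a).mul h.bm, ?_⟩
  obtain ⟨R, hR⟩ := h.supp
  exact ⟨R, fun x hx => by rw [hR x hx, mul_zero]⟩

theorem cube_mul (F : ℝ × ℝ → ℝ) {a : ℝ} (ha : 0 < a) :
    ∫ x in Quad, |a * F x| ^ 3 = a ^ 3 * ∫ x in Quad, |F x| ^ 3 := by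
  rw [← integral_const_mul]
  congr 1
  funext x
  rw [abs_mul, abs_of_pos ha, mul_pow]

theorem scalar_hom {T C a b c : ℝ} (ha : 0 ≤ a) (hb : 0 ≤ b) (hc : 0 ≤ c) (hC : 0 ≤ C)
    (h : ∀ x y z : ℝ, 0 < x → 0 < y → 0 < z →
      x * y * z * T ≤ C * (x ^ 3 * a + y ^ 3 * b + z ^ 3 * c)) :
    T ≤ 3 * C * (a ^ ((1 : ℝ) / 3) * b ^ ((1 : ℝ) / 3) * c ^ ((1 : ℝ) / 3)) := by
  have key : ∀ e : ℝ, 0 < e → T ≤ 3 * C * ((a + e) ^ ((1 : ℝ) / 3) * (b + e) ^ ((1 : ℝ) / 3) *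
      (c + e) ^ ((1 : ℝ) / 3)) := by
    intro e he
    have pa : 0 < a + e := by linarith
    have pb : 0 < b + e := by linarith
    have pc : 0 < c + e := by linarith
    set A := (a + e) ^ ((1 : ℝ) / 3) with hA
    set B := (b + e) ^ ((1 : ℝ) / 3) with hB
    set D := (c + e) ^ ((1 : ℝ) / 3) with hD
    have hA0 : 0 < A := Real.rpow_pos_of_pos pa _
    have hB0 : 0 < B := Real.rpow_pos_of_pos pb _
    have hD0 : 0 < D := Real.rpow_pos_of_pos pc _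
    have cube : ∀ {t : ℝ}, 0 < t → (t ^ ((1 : ℝ) / 3)) ^ 3 = t := by
      intro t ht
      rw [← Real.rpow_natCast, ← Real.rpow_mul ht.le]; norm_num
    have hA3 : A ^ 3 = a + e := cube pa
    have hB3 : B ^ 3 = b + e := cube pb
    have hD3 : D ^ 3 = c + e := cube pc
    have := h A⁻¹ B⁻¹ D⁻¹ (by positivity) (by positivity) (by positivity)
    have h1 : A⁻¹ ^ 3 * a ≤ 1 := by
      rw [inv_pow, hA3, inv_mul_le_iff₀ pa]; linarith
    have h2 : B⁻¹ ^ 3 * b ≤ 1 := by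
      rw [inv_pow, hB3, inv_mul_le_iff₀ pb]; linarith
    have h3 : D⁻¹ ^ 3 * c ≤ 1 := by
      rw [inv_pow, hD3, inv_mul_le_iff₀ pc]; linarith
    have h4 : A⁻¹ * B⁻¹ * D⁻¹ * T ≤ 3 * C := by
      refine this.trans ?_
      nlinarith
    have h5 : T = (A * B * D) * (A⁻¹ * B⁻¹ * D⁻¹ * T) := by field_simp
    rw [h5]
    calc (A * B * D) * (A⁻¹ * B⁻¹ * D⁻¹ * T) ≤ (A * B * D) * (3 * C) :=
          mul_le_mul_of_nonneg_left h4 (by positivity)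
      _ = _ := by ring
  have lim : Tendsto (fun m : ℕ => 3 * C * ((a + 1 / ((m : ℝ) + 1)) ^ ((1 : ℝ) / 3) *
      (b + 1 / ((m : ℝ) + 1)) ^ ((1 : ℝ) / 3) * (c + 1 / ((m : ℝ) + 1)) ^ ((1 : ℝ) / 3))) atTop
      (𝓝 (3 * C * ((a + 0) ^ ((1 : ℝ) / 3) * (b + 0) ^ ((1 : ℝ) / 3) *
        (c + 0) ^ ((1 : ℝ) / 3)))) := by
    have t1 := tendsto_one_div_add_atTop_nhds_zero_nat (𝕜 := ℝ)
    have t2 : ∀ d : ℝ, Tendsto (fun m : ℕ => (d + 1 / ((m : ℝ) + 1)) ^ ((1 : ℝ) / 3)) atTop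
        (𝓝 ((d + 0) ^ ((1 : ℝ) / 3))) := by
      intro d
      exact (tendsto_const_nhds.add t1).rpow_const (Or.inr (by norm_num))
    exact (((t2 a).mul (t2 b)).mul (t2 c)).const_mul _
  simp only [add_zero] at lim
  exact ge_of_tendsto' lim (fun m => key _ (by positivity))

theorem norm_bound {C : ℝ} (hC : 0 ≤ C) (hd : Discrete C) {F0 F1 F2 : ℝ × ℝ → ℝ}
    (h0 : Nice F0) (h1 : Nice F1) (h2 : Nice F2) (S : Finset ℤ) :
    (∀ k ∈ S, Summable (fun n : Adm => |LI F0 F1 F2 k n|)) ∧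
    ∑ k ∈ S, ∑' n : Adm, |LI F0 F1 F2 k n| ≤ 3 * C * (norm3 F0 * norm3 F1 * norm3 F2) := by
  refine ⟨(additive hC hd h0 h1 h2 S).1, ?_⟩
  have hnn : ∀ F : ℝ × ℝ → ℝ, 0 ≤ ∫ x in Quad, |F x| ^ 3 := fun F =>
    integral_nonneg (fun x => by positivity)
  unfold norm3
  apply scalar_hom (hnn F0) (hnn F1) (hnn F2) hC
  intro x y z hx hy hz
  have := (additive hC hd (h0.const_mul x) (h1.const_mul y) (h2.const_mul z) S).2
  rw [cube_mul F0 hx, cube_mul F1 hy, cube_mul F2 hz] at this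
  refine le_trans (le_of_eq ?_) this
  rw [Finset.mul_sum]
  refine Finset.sum_congr rfl fun k _ => ?_
  rw [← tsum_mul_left]
  congr 1
  funext n
  rw [LI_smul, abs_mul, abs_of_pos (by positivity : 0 < x * y * z)]

theorem Lam_bound {C : ℝ} (hC : 0 ≤ C) (hd : Discrete C) {F0 F1 F2 : ℝ × ℝ → ℝ}
    (h0 : Nice F0) (h1 : Nice F1) (h2 : Nice F2) (S : Finset ℤ) (ε : ℤ → ℝ)
    (hε : ∀ k ∈ S, |ε k| ≤ 1) :
    |Lam S ε F0 F1 F2| ≤ 3 * C * (norm3 F0 * norm3 F1 * norm3 F2) := by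
  have hb := norm_bound hC hd h0 h1 h2 S
  refine le_trans ?_ hb.2
  unfold Lam
  refine (Finset.abs_sum_le_sum_abs _ _).trans (Finset.sum_le_sum fun k hk => ?_)
  rw [abs_mul]
  have hs := hb.1 k hk
  have h3 : |∑' n : Adm, LI F0 F1 F2 k n| ≤ ∑' n : Adm, |LI F0 F1 F2 k n| := by
    have := norm_tsum_le_tsum_norm (f := fun n : Adm => LI F0 F1 F2 k n) (by simpa using hs)
    simpa using this
  calc |ε k| * |∑' n : Adm, LI F0 F1 F2 k n| ≤ 1 * ∑' n : Adm, |LI F0 F1 F2 k n| :=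
        mul_le_mul (hε k hk) h3 (abs_nonneg _) (by norm_num)
    _ = _ := one_mul _

theorem nice_of {F : ℝ × ℝ → ℝ} (hm : Measurable F) (hb : ∃ M, ∀ x, |F x| ≤ M)
    (hs : HasCompactSupport F) : Nice F := by
  refine ⟨⟨hm, hb⟩, ?_⟩
  obtain ⟨R, hR⟩ := hs.isCompact.isBounded.exists_norm_le
  refine ⟨R + 1, fun x hx => ?_⟩
  by_contra hne
  have hmem : x ∈ tsupport F := subset_tsupport F hne
  have h1 := hR x hmem
  rw [Prod.norm_def] at h1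
  rcases hx with hx | hx
  · have := (le_abs_self x.1).trans ((le_max_left ‖x.1‖ ‖x.2‖).trans h1)
    linarith
  · have := (le_abs_self x.2).trans ((le_max_right ‖x.1‖ ‖x.2‖).trans h1)
    linarith

end Vale.Agent.H24.TH
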