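import Mathlib

/-!
The dyadic triangular Hilbert form of P075 (Q2): definitions used in the final statement.
-/

namespace Vale.Agent.H24.TH

open MeasureTheory

/-- The dyadic interval `[2^k n, 2^k (n+1))`. -/
def dyad (k : ℤ) (n : ℕ) : Set ℝ := Set.Ico ((2 : ℝ) ^ k * n) ((2 : ℝ) ^ k * (n + 1))

/-- The Haar function `1_{left half} - 1_{right half}` of the dyadic interval
`[2^k n, 2^k (n+1))`. -/
noncomputable def haar (k : ℤ) (n : ℕ) (x : ℝ) : ℝ :=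
  Set.indicator (Set.Ico ((2 : ℝ) ^ k * n) ((2 : ℝ) ^ k * (n + 1 / 2))) (fun _ => (1 : ℝ)) x -
    Set.indicator (Set.Ico ((2 : ℝ) ^ k * (n + 1 / 2)) ((2 : ℝ) ^ k * (n + 1)))
      (fun _ => (1 : ℝ)) x

/-- The form `L_I` for the triple `I = (I_0, I_1, I_2)` of dyadic intervals of length `2^k` with
indices `n = (n_0, n_1, n_2)`. -/
noncomputable def LI (F0 F1 F2 : ℝ × ℝ → ℝ) (k : ℤ) (n : ℕ × ℕ × ℕ) : ℝ :=
  (2 : ℝ) ^ (-k) * ∫ x : ℝ × ℝ × ℝ in dyad k n.1 ×ˢ dyad k n.2.1 ×ˢ dyad k n.2.2,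
    F0 (x.1, x.2.1) * F1 (x.2.1, x.2.2) * F2 (x.2.2, x.1) *
      (haar k n.1 x.1 * haar k n.2.1 x.2.1 * haar k n.2.2 x.2.2)

/-- The index set of `𝒜_k`: triples of indices with XOR sum zero. -/
def Adm : Set (ℕ × ℕ × ℕ) := {n | n.1 ^^^ n.2.1 ^^^ n.2.2 = 0}

/-- The dyadic triangular Hilbert form `Λ^d_{S,ε}`. -/
noncomputable def Lam (S : Finset ℤ) (ε : ℤ → ℝ) (F0 F1 F2 : ℝ × ℝ → ℝ) : ℝ :=
  ∑ k ∈ S, ε k * ∑' n : Adm, LI F0 F1 F2 k n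

/-- the quadrant `[0,∞)²` -/
def Quad : Set (ℝ × ℝ) := Set.Ici 0 ×ˢ Set.Ici 0

/-- the norm of `L³([0,∞)²)` -/
noncomputable def norm3 (F : ℝ × ℝ → ℝ) : ℝ := (∫ x in Quad, |F x| ^ 3) ^ ((1 : ℝ) / 3)

end Vale.Agent.H24.TH
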